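import Mathlib
import Crest.Prelude.Def_LubinTate

set_option autoImplicit false

open Crest.LubinTate

namespace Crest.Agent.LT93

variable {R : Type*} [CommRing R] {S : Type*} [CommRing S] {σ τ : Type*}

/-- `F(a,b)` -/
noncomputable def op (F : FormalGroup R) (a b : MvPowerSeries σ R) : MvPowerSeries σ R :=
  F.toPowerSeries.subst ![a, b]

/-- `φ(a)` -/
noncomputable def ev (φ : PowerSeries R) (a : MvPowerSeries σ R) : MvPowerSeries σ R :=
  PowerSeries.subst a φ

lemma hasSubst_pair {a b : MvPowerSeries σ R} (ha : PowerSeries.HasSubst a)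
    (hb : PowerSeries.HasSubst b) : MvPowerSeries.HasSubst ![a, b] :=
  MvPowerSeries.hasSubst_of_constantCoeff_nilpotent fun s => by fin_cases s <;> simpa

lemma hasSubst_op (F : FormalGroup R) {a b : MvPowerSeries σ R} (ha : PowerSeries.HasSubst a)
    (hb : PowerSeries.HasSubst b) : PowerSeries.HasSubst (op F a b) :=
  MvPowerSeries.IsNilpotent_subst (hasSubst_pair ha hb)
      (F.zero_constantCoeff ▸ IsNilpotent.zero)

lemma hasSubst_ev {φ : PowerSeries R} (hφ : PowerSeries.constantCoeff φ = 0)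
    {a : MvPowerSeries σ R} (ha : PowerSeries.HasSubst a) : PowerSeries.HasSubst (ev φ a) := by
  have h : PowerSeries.HasSubst φ := PowerSeries.HasSubst.of_constantCoeff_zero' hφ
  have := h.comp ha
  rwa [PowerSeries.coe_substAlgHom ha] at this

lemma subst_op (F : FormalGroup R) {a b : MvPowerSeries σ R} (ha : PowerSeries.HasSubst a)
    (hb : PowerSeries.HasSubst b) {c : σ → MvPowerSeries τ R} (hc : MvPowerSeries.HasSubst c) :
    MvPowerSeries.subst c (op F a b) = op F (MvPowerSeries.subst c a) (MvPowerSeries.subst c b) := by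
  unfold op
  rw [MvPowerSeries.subst_comp_subst_apply (hasSubst_pair ha hb) hc]
  congr! 2 with s
  fin_cases s <;> simp

lemma subst_ev (φ : PowerSeries R) {a : MvPowerSeries σ R} (ha : PowerSeries.HasSubst a)
    {c : σ → MvPowerSeries τ R} (hc : MvPowerSeries.HasSubst c) :
    MvPowerSeries.subst c (ev φ a) = ev φ (MvPowerSeries.subst c a) := by
  unfold ev
  rw [PowerSeries.subst, MvPowerSeries.subst_comp_subst_apply ha.const hc]
  rfl

lemma hasSubst_subst {a : MvPowerSeries σ R} (ha : PowerSeries.HasSubst a)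
    {c : σ → MvPowerSeries τ R} (hc : MvPowerSeries.HasSubst c) :
    PowerSeries.HasSubst (MvPowerSeries.subst c a) :=
  MvPowerSeries.IsNilpotent_subst hc ha

@[simp] lemma ev_X {a : MvPowerSeries σ R} (ha : PowerSeries.HasSubst a) :
    ev PowerSeries.X a = a := PowerSeries.subst_X ha

@[simp] lemma ev_self_X (φ : PowerSeries R) :
    ev φ (PowerSeries.X : PowerSeries R) = φ := PowerSeries.X_subst φ

lemma ev_ev {φ ψ : PowerSeries R} (hψ : PowerSeries.constantCoeff ψ = 0)
    {a : MvPowerSeries σ R} (ha : PowerSeries.HasSubst a) :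
    ev φ (ev ψ a) = ev (ev φ ψ : PowerSeries R) a := by
  unfold ev
  rw [PowerSeries.subst_comp_subst_apply (PowerSeries.HasSubst.of_constantCoeff_zero' hψ) ha]

lemma op_assoc (F : FormalGroup R) {a b c : MvPowerSeries σ R} (ha : PowerSeries.HasSubst a)
    (hb : PowerSeries.HasSubst b) (hc : PowerSeries.HasSubst c) :
    op F (op F a b) c = op F a (op F b c) := F.assoc' ha hb hc

lemma op_comm (F : FormalGroup R) [F.IsComm] {a b : MvPowerSeries σ R}
    (ha : PowerSeries.HasSubst a) (hb : PowerSeries.HasSubst b) :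
    op F a b = op F b a := F.comm' ha hb

lemma op_zero (F : FormalGroup R) {a : MvPowerSeries σ R} (ha : PowerSeries.HasSubst a) :
    op F a 0 = a := F.add_zero ha

lemma zero_op (F : FormalGroup R) {a : MvPowerSeries σ R} (ha : PowerSeries.HasSubst a) :
    op F 0 a = a := F.zero_add ha

@[simp] lemma op_X (F : FormalGroup R) :
    op F (MvPowerSeries.X 0 : MvPowerSeries (Fin 2) R) (MvPowerSeries.X 1) = F.toPowerSeries := by
  unfold op
  have : ![(MvPowerSeries.X 0 : MvPowerSeries (Fin 2) R), MvPowerSeries.X 1] =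
      (MvPowerSeries.X : Fin 2 → MvPowerSeries (Fin 2) R) := by
    ext1 i; fin_cases i <;> rfl
  rw [this, MvPowerSeries.subst_self]; rfl

lemma map_op (F : FormalGroup R) (f : R →+* S) {a b : MvPowerSeries σ R}
    (ha : PowerSeries.HasSubst a) (hb : PowerSeries.HasSubst b) :
    MvPowerSeries.map f (op F a b) = op (F.map f) (MvPowerSeries.map f a) (MvPowerSeries.map f b) := by
  unfold op
  rw [MvPowerSeries.map_subst (hasSubst_pair ha hb)]
  have : (fun i => MvPowerSeries.map f (![a, b] i)) =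
      ![MvPowerSeries.map f a, MvPowerSeries.map f b] := by
    ext1 i; fin_cases i <;> rfl
  rw [this]; rfl

lemma map_ev (φ : PowerSeries R) (f : R →+* S) {a : MvPowerSeries σ R}
    (ha : PowerSeries.HasSubst a) :
    MvPowerSeries.map f (ev φ a) = ev (PowerSeries.map f φ) (MvPowerSeries.map f a) := by
  unfold ev
  rw [PowerSeries.map_subst ha]

lemma hasSubst_map {f : R →+* S} {a : MvPowerSeries σ R}
    (ha : PowerSeries.HasSubst a) : PowerSeries.HasSubst (MvPowerSeries.map f a) := by
  unfold PowerSeries.HasSubst at *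
  rw [MvPowerSeries.constantCoeff_map]
  exact ha.map f

lemma isFGHom_iff (F G : FormalGroup R) (φ : PowerSeries R) :
    IsFGHom F G φ ↔ PowerSeries.constantCoeff φ = 0 ∧
      ev φ (op F (MvPowerSeries.X 0 : MvPowerSeries (Fin 2) R) (MvPowerSeries.X 1)) =
        op G (ev φ (MvPowerSeries.X 0)) (ev φ (MvPowerSeries.X 1)) := by
  rw [op_X]; rfl

lemma hom_apply {F G : FormalGroup R} {φ : PowerSeries R} (h : IsFGHom F G φ)
    {a b : MvPowerSeries σ R} (ha : PowerSeries.HasSubst a) (hb : PowerSeries.HasSubst b) :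
    ev φ (op F a b) = op G (ev φ a) (ev φ b) := by
  obtain ⟨h0, h1⟩ := (isFGHom_iff F G φ).1 h
  have hab := hasSubst_pair ha hb
  have hX0 : PowerSeries.HasSubst (MvPowerSeries.X 0 : MvPowerSeries (Fin 2) R) :=
    PowerSeries.HasSubst.X 0
  have hX1 : PowerSeries.HasSubst (MvPowerSeries.X 1 : MvPowerSeries (Fin 2) R) :=
    PowerSeries.HasSubst.X 1
  have h2 := congrArg (MvPowerSeries.subst ![a, b]) h1
  rw [subst_ev φ (hasSubst_op F hX0 hX1) hab, subst_op F hX0 hX1 hab,
    subst_op G (hasSubst_ev h0 hX0) (hasSubst_ev h0 hX1) hab, subst_ev φ hX0 hab,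
    subst_ev φ hX1 hab, MvPowerSeries.subst_X hab, MvPowerSeries.subst_X hab] at h2
  simpa using h2

lemma hom_of_apply {F G : FormalGroup R} {φ : PowerSeries R}
    (h0 : PowerSeries.constantCoeff φ = 0)
    (h : ev φ (op F (MvPowerSeries.X 0 : MvPowerSeries (Fin 2) R) (MvPowerSeries.X 1)) =
      op G (ev φ (MvPowerSeries.X 0)) (ev φ (MvPowerSeries.X 1))) : IsFGHom F G φ :=
  (isFGHom_iff F G φ).2 ⟨h0, h⟩

lemma constantCoeff_ev {φ ψ : PowerSeries R} (hφ : PowerSeries.constantCoeff φ = 0)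
    (hψ : PowerSeries.constantCoeff ψ = 0) :
    PowerSeries.constantCoeff (ev φ ψ : PowerSeries R) = 0 :=
  PowerSeries.constantCoeff_subst_eq_zero hψ φ hφ

lemma hX (i : σ) : PowerSeries.HasSubst (MvPowerSeries.X i : MvPowerSeries σ R) :=
  PowerSeries.HasSubst.X i

lemma hom_id (F : FormalGroup R) : IsFGHom F F PowerSeries.X := by
  apply hom_of_apply
  · simp
  · rw [ev_X (hasSubst_op F (hX 0) (hX 1)), ev_X (hX 0), ev_X (hX 1)]

lemma hom_comp {F G H : FormalGroup R} {φ ψ : PowerSeries R} (h : IsFGHom F G φ)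
    (h' : IsFGHom G H ψ) : IsFGHom F H (ev ψ φ : PowerSeries R) := by
  apply hom_of_apply (constantCoeff_ev h'.1 h.1)
  rw [← ev_ev h.1 (hasSubst_op F (hX 0) (hX 1)), hom_apply h (hX 0) (hX 1),
    hom_apply h' (hasSubst_ev h.1 (hX 0)) (hasSubst_ev h.1 (hX 1)), ← ev_ev h.1 (hX 0),
    ← ev_ev h.1 (hX 1)]

lemma hom_map {F G : FormalGroup R} {φ : PowerSeries R} (h : IsFGHom F G φ)
    (f : R →+* S) : IsFGHom (F.map f) (G.map f) (PowerSeries.map f φ) := by
  apply hom_of_apply
  · rw [← PowerSeries.coeff_zero_eq_constantCoeff_apply, PowerSeries.coeff_map,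
      PowerSeries.coeff_zero_eq_constantCoeff_apply, h.1, _root_.map_zero]
  · have h2 := congrArg (MvPowerSeries.map f) (hom_apply h (hX (0 : Fin 2)) (hX 1))
    rwa [map_ev φ f (hasSubst_op F (hX 0) (hX 1)), map_op F f (hX 0) (hX 1),
      map_op G f (hasSubst_ev h.1 (hX 0)) (hasSubst_ev h.1 (hX 1)), map_ev φ f (hX 0),
      map_ev φ f (hX 1), MvPowerSeries.map_X, MvPowerSeries.map_X] at h2

lemma mulSeries_zero' (F : FormalGroup R) : mulSeries F 0 = 0 := rfl

lemma mulSeries_succ (F : FormalGroup R) (m : ℕ) :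
    mulSeries F (m + 1) = op F (mulSeries F m : PowerSeries R) PowerSeries.X := rfl

lemma hasSubst_of (φ : PowerSeries R) (h : PowerSeries.constantCoeff φ = 0) :
    PowerSeries.HasSubst (φ : PowerSeries R) := PowerSeries.HasSubst.of_constantCoeff_zero' h

lemma hXX : PowerSeries.HasSubst (PowerSeries.X : PowerSeries R) := PowerSeries.HasSubst.X'

lemma constantCoeff_mulSeries (F : FormalGroup R) (m : ℕ) :
    PowerSeries.constantCoeff (mulSeries F m) = 0 := by
  induction m with
  | zero => simp [mulSeries_zero']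
  | succ m ih =>
    rw [mulSeries_succ]
    exact MvPowerSeries.constantCoeff_subst_eq_zero (hasSubst_pair (hasSubst_of _ ih) hXX)
      (fun i => by
        fin_cases i
        · exact ih
        · exact PowerSeries.constantCoeff_X) F.zero_constantCoeff

lemma hasSubst_mulSeries (F : FormalGroup R) (m : ℕ) :
    PowerSeries.HasSubst (mulSeries F m : PowerSeries R) :=
  hasSubst_of _ (constantCoeff_mulSeries F m)

lemma mulSeries_map (F : FormalGroup R) (f : R →+* S) (m : ℕ) :
    PowerSeries.map f (mulSeries F m) = mulSeries (F.map f) m := by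
  induction m with
  | zero => simp [mulSeries_zero']
  | succ m ih =>
    rw [mulSeries_succ, mulSeries_succ, ← ih]
    have h := map_op F f (hasSubst_mulSeries F m) hXX
    have e : (MvPowerSeries.map f) (PowerSeries.X : PowerSeries R) = (PowerSeries.X : PowerSeries S) :=
      PowerSeries.map_X f
    rw [e] at h
    exact h

/-- `[m]_G ∘ φ = φ ∘ [m]_F` for a homomorphism `φ : F → G`. -/
lemma hom_mulSeries {F G : FormalGroup R} {φ : PowerSeries R} (h : IsFGHom F G φ) (m : ℕ) :
    ev φ (mulSeries F m : PowerSeries R) = (ev (Crest.LubinTate.mulSeries G m) φ : PowerSeries R) := by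
  induction m with
  | zero =>
    simp only [mulSeries_zero']
    rw [ev, PowerSeries.subst_zero_of_constantCoeff_zero h.1, ev]
    exact ((PowerSeries.coe_substAlgHom (R := R) (hasSubst_of φ h.1)) ▸
      (_root_.map_zero (PowerSeries.substAlgHom (R := R) (hasSubst_of φ h.1)))).symm
  | succ m ih =>
    rw [mulSeries_succ, mulSeries_succ, hom_apply h (hasSubst_mulSeries F m) hXX, ih, ev_self_X]
    -- now ev of op
    have := subst_op (τ := Unit) G (hasSubst_mulSeries G m) hXX (hasSubst_of φ h.1).const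
    have e2 : MvPowerSeries.subst (fun _ : Unit => φ) (PowerSeries.X : PowerSeries R) = φ :=
      PowerSeries.subst_X (hasSubst_of φ h.1)
    rw [e2] at this
    exact this.symm


/-! ### Compositional inverses -/

section Inv

variable (θ : PowerSeries R) (h0 : PowerSeries.constantCoeff θ = 0)
  (h1 : IsUnit (PowerSeries.coeff 1 θ))

/-- compositional inverse -/
noncomputable def cinv : PowerSeries R := θ.substInvOfIsUnit h1

lemma constantCoeff_cinv : PowerSeries.constantCoeff (cinv θ h1) = 0 :=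
  PowerSeries.constantCoeff_substInvOfIsUnit θ h1

lemma isUnit_coeff_one_cinv : IsUnit (PowerSeries.coeff 1 (cinv θ h1)) := by
  unfold cinv
  rw [PowerSeries.coeff_one_substInvOfIsUnit]
  exact Units.isUnit _

include h0 in
lemma ev_cinv_right : (ev θ (cinv θ h1) : PowerSeries R) = PowerSeries.X :=
  PowerSeries.subst_substInvOfIsUnit_right θ h0 h1

include h0 in
lemma ev_cinv_left : (ev (cinv θ h1) θ : PowerSeries R) = PowerSeries.X :=
  PowerSeries.subst_substInvOfIsUnit_left θ h0 h1

include h0 in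
lemma ev_ev_cinv {a : MvPowerSeries σ R} (ha : PowerSeries.HasSubst a) :
    ev θ (ev (cinv θ h1) a) = a := by
  rw [ev_ev (constantCoeff_cinv θ h1) ha, ev_cinv_right θ h0 h1, ev_X ha]

include h0 in
lemma ev_cinv_ev {a : MvPowerSeries σ R} (ha : PowerSeries.HasSubst a) :
    ev (cinv θ h1) (ev θ a) = a := by
  rw [ev_ev h0 ha, ev_cinv_left θ h0 h1, ev_X ha]

end Inv

lemma constantCoeff_op (F : FormalGroup R) {a b : MvPowerSeries σ R}
    (ha : MvPowerSeries.constantCoeff a = 0) (hb : MvPowerSeries.constantCoeff b = 0) :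
    MvPowerSeries.constantCoeff (op F a b) = 0 := by
  refine MvPowerSeries.constantCoeff_subst_eq_zero (hasSubst_pair
    (PowerSeries.HasSubst.of_constantCoeff_zero ha)
    (PowerSeries.HasSubst.of_constantCoeff_zero hb)) (fun i => ?_) F.zero_constantCoeff
  fin_cases i
  · exact ha
  · exact hb

lemma constantCoeff_ev' {φ : PowerSeries R} (hφ : PowerSeries.constantCoeff φ = 0)
    {a : MvPowerSeries σ R} (ha : MvPowerSeries.constantCoeff a = 0) :
    MvPowerSeries.constantCoeff (ev φ a) = 0 :=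
  PowerSeries.constantCoeff_subst_eq_zero ha φ hφ

lemma coeff_single_zero (P : MvPowerSeries (Fin 2) R) :
    MvPowerSeries.coeff (Finsupp.single 0 1) P =
      PowerSeries.coeff 1 (MvPowerSeries.subst ![PowerSeries.X, 0] P : PowerSeries R) := by
  rw [PowerSeries.coeff, MvPowerSeries.coeff_subst, finsum_eq_single _ (Finsupp.single 0 1)]
  · simp
  · intro d hd
    by_cases hd₁ : d 1 = 0
    · by_cases hd₀ : d 0 = 0
      · simp [hd₀, hd₁]
      simp [hd₁, PowerSeries.coeff_X_pow]
      grind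
    simp [hd₁]
  · exact MvPowerSeries.HasSubst.X_zero

lemma coeff_single_one (P : MvPowerSeries (Fin 2) R) :
    MvPowerSeries.coeff (Finsupp.single 1 1) P =
      PowerSeries.coeff 1 (MvPowerSeries.subst ![0, PowerSeries.X] P : PowerSeries R) := by
  rw [PowerSeries.coeff, MvPowerSeries.coeff_subst, finsum_eq_single _ (Finsupp.single 1 1)]
  · simp
  · intro d hd
    by_cases hd₁ : d 0 = 0
    · by_cases hd₀ : d 1 = 0
      · simp [hd₀, hd₁]
      simp [hd₁, PowerSeries.coeff_X_pow]
      grind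
    simp [hd₁]
  · exact MvPowerSeries.HasSubst.zero_X

lemma ev_zero_arg {φ : PowerSeries R} (hφ : PowerSeries.constantCoeff φ = 0) :
    ev φ (0 : MvPowerSeries σ R) = 0 :=
  PowerSeries.subst_zero_of_constantCoeff_zero hφ

lemma hzero : PowerSeries.HasSubst (0 : MvPowerSeries σ R) := PowerSeries.HasSubst.zero

/-- The conjugate `θ⁻¹(G(θ X, θ Y))` of a formal group law. -/
noncomputable def conj (G : FormalGroup R) (θ : PowerSeries R)
    (h0 : PowerSeries.constantCoeff θ = 0) (h1 : IsUnit (PowerSeries.coeff 1 θ)) :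
    FormalGroup R where
  toPowerSeries := ev (cinv θ h1) (op G (ev θ (MvPowerSeries.X 0)) (ev θ (MvPowerSeries.X 1)))
  zero_constantCoeff := constantCoeff_ev' (constantCoeff_cinv θ h1)
    (constantCoeff_op G (constantCoeff_ev' h0 (MvPowerSeries.constantCoeff_X _))
      (constantCoeff_ev' h0 (MvPowerSeries.constantCoeff_X _)))
  lin_coeff_X := by
    have hs : MvPowerSeries.HasSubst ![(PowerSeries.X : PowerSeries R), 0] :=
      MvPowerSeries.HasSubst.X_zero
    rw [coeff_single_zero, subst_ev _ (hasSubst_op G (hasSubst_ev h0 (hX 0))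
      (hasSubst_ev h0 (hX 1))) hs, subst_op G (hasSubst_ev h0 (hX 0)) (hasSubst_ev h0 (hX 1)) hs,
      subst_ev _ (hX 0) hs, subst_ev _ (hX 1) hs, MvPowerSeries.subst_X hs,
      MvPowerSeries.subst_X hs]
    simp only [Matrix.cons_val_zero, Matrix.cons_val_one]
    rw [ev_zero_arg h0, op_zero G (hasSubst_ev h0 hXX), ev_cinv_ev θ h0 h1 hXX]
    exact PowerSeries.coeff_one_X
  lin_coeff_Y := by
    have hs : MvPowerSeries.HasSubst ![0, (PowerSeries.X : PowerSeries R)] :=
      MvPowerSeries.HasSubst.zero_X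
    rw [coeff_single_one, subst_ev _ (hasSubst_op G (hasSubst_ev h0 (hX 0))
      (hasSubst_ev h0 (hX 1))) hs, subst_op G (hasSubst_ev h0 (hX 0)) (hasSubst_ev h0 (hX 1)) hs,
      subst_ev _ (hX 0) hs, subst_ev _ (hX 1) hs, MvPowerSeries.subst_X hs,
      MvPowerSeries.subst_X hs]
    simp only [Matrix.cons_val_zero, Matrix.cons_val_one]
    rw [ev_zero_arg h0, zero_op G (hasSubst_ev h0 hXX), ev_cinv_ev θ h0 h1 hXX]
    exact PowerSeries.coeff_one_X
  assoc := by
    have hX' : ∀ i : Fin 2, PowerSeries.HasSubst (MvPowerSeries.X i : MvPowerSeries (Fin 2) R) :=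
      fun i => hX i
    -- general substitution formula
    have key : ∀ a b : MvPowerSeries (Fin 3) R, PowerSeries.HasSubst a → PowerSeries.HasSubst b →
        MvPowerSeries.subst ![a, b]
          (ev (cinv θ h1) (op G (ev θ (MvPowerSeries.X 0)) (ev θ (MvPowerSeries.X 1)))) =
        ev (cinv θ h1) (op G (ev θ a) (ev θ b)) := by
      intro a b ha hb
      have hs := hasSubst_pair ha hb
      rw [subst_ev _ (hasSubst_op G (hasSubst_ev h0 (hX 0))
        (hasSubst_ev h0 (hX 1))) hs, subst_op G (hasSubst_ev h0 (hX 0)) (hasSubst_ev h0 (hX 1)) hs,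
        subst_ev _ (hX 0) hs, subst_ev _ (hX 1) hs, MvPowerSeries.subst_X hs,
        MvPowerSeries.subst_X hs]
      rfl
    have hY : ∀ i : Fin 3, PowerSeries.HasSubst (MvPowerSeries.X i : MvPowerSeries (Fin 3) R) :=
      fun i => hX i
    have hc := constantCoeff_cinv θ h1
    have hop : ∀ i j : Fin 3, PowerSeries.HasSubst
        (op G (ev θ (MvPowerSeries.X i)) (ev θ (MvPowerSeries.X j))) := fun i j =>
      hasSubst_op G (hasSubst_ev h0 (hY i)) (hasSubst_ev h0 (hY j))
    rw [key _ _ (hY 0) (hY 1), key _ _ (hY 1) (hY 2), key _ _ (hasSubst_ev hc (hop 0 1)) (hY 2),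
      key _ _ (hY 0) (hasSubst_ev hc (hop 1 2)), ev_ev_cinv θ h0 h1 (hop 0 1),
      ev_ev_cinv θ h0 h1 (hop 1 2), op_assoc G (hasSubst_ev h0 (hY 0)) (hasSubst_ev h0 (hY 1))
        (hasSubst_ev h0 (hY 2))]

section Conj

variable (G : FormalGroup R) (θ : PowerSeries R) (h0 : PowerSeries.constantCoeff θ = 0)
  (h1 : IsUnit (PowerSeries.coeff 1 θ))

lemma conj_toPowerSeries : (conj G θ h0 h1).toPowerSeries =
    ev (cinv θ h1) (op G (ev θ (MvPowerSeries.X 0)) (ev θ (MvPowerSeries.X 1))) := rfl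

lemma op_conj {a b : MvPowerSeries σ R} (ha : PowerSeries.HasSubst a)
    (hb : PowerSeries.HasSubst b) :
    op (conj G θ h0 h1) a b = ev (cinv θ h1) (op G (ev θ a) (ev θ b)) := by
  have hs := hasSubst_pair ha hb
  rw [op, conj_toPowerSeries, subst_ev _ (hasSubst_op G (hasSubst_ev h0 (hX 0))
    (hasSubst_ev h0 (hX 1))) hs, subst_op G (hasSubst_ev h0 (hX 0)) (hasSubst_ev h0 (hX 1)) hs,
    subst_ev _ (hX 0) hs, subst_ev _ (hX 1) hs, MvPowerSeries.subst_X hs,
    MvPowerSeries.subst_X hs]
  rfl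

lemma conj_hom : IsFGHom (conj G θ h0 h1) G θ := by
  apply hom_of_apply h0
  rw [op_conj G θ h0 h1 (hX 0) (hX 1), ev_ev_cinv θ h0 h1
    (hasSubst_op G (hasSubst_ev h0 (hX 0)) (hasSubst_ev h0 (hX 1)))]

/-- The inverse of a homomorphism with unit linear coefficient is a homomorphism. -/
lemma hom_cinv {F G : FormalGroup R} {θ : PowerSeries R} (h : IsFGHom F G θ)
    (h1 : IsUnit (PowerSeries.coeff 1 θ)) : IsFGHom G F (cinv θ h1) := by
  apply hom_of_apply (constantCoeff_cinv θ h1)
  have hc := constantCoeff_cinv θ h1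
  have h2 := hom_apply h (hasSubst_ev hc (hX (0 : Fin 2))) (hasSubst_ev hc (hX 1))
  rw [ev_ev_cinv θ h.1 h1 (hX 0), ev_ev_cinv θ h.1 h1 (hX 1)] at h2
  rw [← h2, ev_cinv_ev θ h.1 h1 (hasSubst_op F (hasSubst_ev hc (hX 0)) (hasSubst_ev hc (hX 1)))]

/-- If `θ : F → G` is a homomorphism with unit linear coefficient then `F` is the conjugate. -/
lemma eq_conj_of_hom {F G : FormalGroup R} {θ : PowerSeries R} (h : IsFGHom F G θ)
    (h1 : IsUnit (PowerSeries.coeff 1 θ)) : F = conj G θ h.1 h1 := by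
  ext1
  rw [conj_toPowerSeries, ← hom_apply h (hX 0) (hX 1),
    ev_cinv_ev θ h.1 h1 (hasSubst_op F (hX 0) (hX 1)), op_X]

instance conj_isComm [G.IsComm] : (conj G θ h0 h1).IsComm where
  comm := by
    have h := op_conj G θ h0 h1 (hX (1 : Fin 2)) (hX 0)
    have e : op (conj G θ h0 h1) (MvPowerSeries.X 1 : MvPowerSeries (Fin 2) R)
      (MvPowerSeries.X 0) = (conj G θ h0 h1).toPowerSeries.subst
        ![MvPowerSeries.X 1, MvPowerSeries.X 0] := rfl
    rw [← e, h, conj_toPowerSeries, op_comm G (hasSubst_ev h0 (hX 0)) (hasSubst_ev h0 (hX 1))]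

end Conj

lemma map_cinv (θ : PowerSeries R) (h0 : PowerSeries.constantCoeff θ = 0)
    (h1 : IsUnit (PowerSeries.coeff 1 θ)) (f : R →+* S)
    (h1' : IsUnit (PowerSeries.coeff 1 (PowerSeries.map f θ))) :
    PowerSeries.map f (cinv θ h1) = cinv (PowerSeries.map f θ) h1' := by
  have hc := constantCoeff_cinv θ h1
  have h0' : PowerSeries.constantCoeff (PowerSeries.map f θ) = 0 := by
    rw [← PowerSeries.coeff_zero_eq_constantCoeff_apply, PowerSeries.coeff_map,
      PowerSeries.coeff_zero_eq_constantCoeff_apply, h0, _root_.map_zero]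
  have hc' : PowerSeries.constantCoeff (PowerSeries.map f (cinv θ h1)) = 0 := by
    rw [← PowerSeries.coeff_zero_eq_constantCoeff_apply, PowerSeries.coeff_map,
      PowerSeries.coeff_zero_eq_constantCoeff_apply, hc, _root_.map_zero]
  have h2 := map_ev θ f (hasSubst_of _ hc)
  have h3 : (ev θ (cinv θ h1) : PowerSeries R) = PowerSeries.X := ev_cinv_right θ h0 h1
  rw [h3] at h2
  have h4 : (MvPowerSeries.map f) (PowerSeries.X : PowerSeries R) =
    (PowerSeries.X : PowerSeries S) := PowerSeries.map_X f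
  rw [h4] at h2
  have h5 := congrArg (fun z : PowerSeries S => (ev (cinv (PowerSeries.map f θ) h1') z :
    PowerSeries S)) h2
  have h6 := ev_cinv_ev (PowerSeries.map f θ) h0' h1' (hasSubst_of _ hc')
  rw [ev_self_X] at h5
  rw [h5]
  exact h6.symm

end Crest.Agent.LT93
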