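import Mathlib
import Crest.Prelude.Def_LubinTate
import Crest.Agent.LT93.FG

set_option autoImplicit false

open Crest.LubinTate

namespace Crest.Agent.LT93

section ChainRule

variable {R : Type*} [CommRing R] {σ τ : Type*}

open scoped MvPowerSeries.WithPiTopology in
/-- Partial derivatives are continuous for the product topology. -/
lemma continuous_pderiv [TopologicalSpace R] [IsTopologicalRing R] (i : σ) :
    Continuous (fun f : MvPowerSeries σ R => MvPowerSeries.pderiv R i f) := by
  refine continuous_pi fun d => ?_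
  have h : (fun f : MvPowerSeries σ R => MvPowerSeries.pderiv R i f d) =
      fun f => MvPowerSeries.coeff (d + Finsupp.single i 1) f * ((d i : R) + 1) := by
    funext f
    exact MvPowerSeries.coeff_pderiv f d
  rw [h]
  exact (MvPowerSeries.WithPiTopology.continuous_coeff R _).mul continuous_const

lemma pderiv_aeval [Fintype σ] (a : σ → MvPowerSeries τ R) (q : MvPolynomial σ R) (j : τ) :
    MvPowerSeries.pderiv R j (MvPolynomial.aeval a q) =
      ∑ i, MvPolynomial.aeval a (MvPolynomial.pderiv i q) *
        MvPowerSeries.pderiv R j (a i) := by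
  classical
  induction q using MvPolynomial.induction_on with
  | C r =>
    simp only [MvPolynomial.aeval_C, MvPolynomial.pderiv_C, map_zero, zero_mul,
      Finset.sum_const_zero]
    exact Derivation.map_algebraMap _ r
  | add f g hf hg =>
    simp only [map_add, hf, hg, add_mul, Finset.sum_add_distrib]
  | mul_X f s hf =>
    rw [map_mul, Derivation.leibniz, hf, MvPolynomial.aeval_X]
    simp only [Derivation.leibniz, smul_eq_mul, map_add, map_mul, MvPolynomial.aeval_X,
      MvPolynomial.pderiv_X]
    simp only [add_mul, Finset.sum_add_distrib]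
    congr 1
    · rw [Finset.sum_eq_single s]
      · simp
      · intro b _ hb
        simp [Ne.symm hb]
      · intro h; exact absurd (Finset.mem_univ _) h
    · rw [Finset.mul_sum]
      refine Finset.sum_congr rfl fun i _ => ?_
      ring

/-- Chain rule for multivariate power series substitution. -/
theorem pderiv_subst [Fintype σ] {a : σ → MvPowerSeries τ R} (ha : MvPowerSeries.HasSubst a)
    (f : MvPowerSeries σ R) (j : τ) :
    MvPowerSeries.pderiv R j (MvPowerSeries.subst a f) =
      ∑ i, MvPowerSeries.subst a (MvPowerSeries.pderiv R i f) *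
        MvPowerSeries.pderiv R j (a i) := by
  classical
  let _ : UniformSpace R := ⊥
  have _ : DiscreteUniformity R := ⟨rfl⟩
  open scoped MvPowerSeries.WithPiTopology in
  have hL : Continuous (fun f : MvPowerSeries σ R =>
      MvPowerSeries.pderiv R j (MvPowerSeries.subst a f)) :=
    (continuous_pderiv j).comp (MvPowerSeries.continuous_subst ha)
  open scoped MvPowerSeries.WithPiTopology in
  have hR : Continuous (fun f : MvPowerSeries σ R =>
      ∑ i, MvPowerSeries.subst a (MvPowerSeries.pderiv R i f) *
        MvPowerSeries.pderiv R j (a i)) := by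
    refine continuous_finsetSum _ fun i _ => ?_
    exact ((MvPowerSeries.continuous_subst ha).comp (continuous_pderiv i)).mul continuous_const
  open scoped MvPowerSeries.WithPiTopology in
  have hden : DenseRange (MvPolynomial.toMvPowerSeries (R := R) (σ := σ)) :=
    MvPowerSeries.WithPiTopology.denseRange_toMvPowerSeries
  open scoped MvPowerSeries.WithPiTopology in
  have key := hden.equalizer hL hR (by
    funext q
    simp only [Function.comp_apply]
    rw [MvPowerSeries.subst_coe, pderiv_aeval]
    refine Finset.sum_congr rfl fun i _ => ?_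
    rw [MvPowerSeries.pderiv_coe, MvPowerSeries.subst_coe])
  exact congrFun key f

/-- Chain rule for a univariate outer series. -/
theorem pderiv_ev {a : MvPowerSeries τ R} (ha : PowerSeries.HasSubst a)
    (φ : PowerSeries R) (j : τ) :
    MvPowerSeries.pderiv R j (ev φ a) =
      ev (PowerSeries.derivative R φ) a * MvPowerSeries.pderiv R j a := by
  have h := pderiv_subst ha.const φ j
  simp only [Finset.univ_unique, PUnit.default_eq_unit, Finset.sum_singleton] at h
  exact h

end ChainRule

section Frobenius

variable {R : Type*} [CommRing R]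

lemma constantCoeff_subst_of_zero {σ τ : Type*} {a : σ → MvPowerSeries τ R}
    (ha : MvPowerSeries.HasSubst a)
    (h0 : ∀ i, MvPowerSeries.constantCoeff (a i) = 0) (f : MvPowerSeries σ R) :
    MvPowerSeries.constantCoeff (MvPowerSeries.subst a f) = MvPowerSeries.constantCoeff f := by
  have e : f = (f - MvPowerSeries.C (MvPowerSeries.constantCoeff f)) +
      MvPowerSeries.C (MvPowerSeries.constantCoeff f) := by ring
  conv_lhs => rw [e]
  rw [MvPowerSeries.subst_add ha, map_add, MvPowerSeries.constantCoeff_subst_eq_zero ha h0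
    (by simp), zero_add, MvPowerSeries.subst_C, MvPowerSeries.constantCoeff_C]

/-- A homomorphism of formal group laws with zero linear coefficient has zero derivative. -/
theorem derivative_eq_zero_of_hom {F G : FormalGroup R} {φ : PowerSeries R}
    (h : IsFGHom F G φ) (h1 : PowerSeries.coeff 1 φ = 0) : PowerSeries.derivative R φ = 0 := by
  have h2 := congrArg (MvPowerSeries.pderiv R 1) (hom_apply h (hX (0 : Fin 2)) (hX 1))
  rw [pderiv_ev (hasSubst_op F (hX 0) (hX 1))] at h2
  have h3 : MvPowerSeries.pderiv R 1 (op G (ev φ (MvPowerSeries.X 0 : MvPowerSeries (Fin 2) R))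
      (ev φ (MvPowerSeries.X 1))) =
      MvPowerSeries.subst ![ev φ (MvPowerSeries.X 0 : MvPowerSeries (Fin 2) R),
        ev φ (MvPowerSeries.X 1)] (MvPowerSeries.pderiv R 1 G.toPowerSeries) *
        ev (PowerSeries.derivative R φ) (MvPowerSeries.X 1) := by
    unfold op
    rw [pderiv_subst (hasSubst_pair (hasSubst_ev h.1 (hX 0)) (hasSubst_ev h.1 (hX 1))),
      Fin.sum_univ_two]
    simp only [Matrix.cons_val_zero, Matrix.cons_val_one]
    rw [pderiv_ev (hX 0), pderiv_ev (hX 1), MvPowerSeries.pderiv_X_self,
      MvPowerSeries.pderiv_X_of_ne (by decide : (0 : Fin 2) ≠ 1), mul_zero, mul_zero, zero_add,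
      mul_one]
  rw [h3] at h2
  -- substitute `Y = 0`
  have hs : MvPowerSeries.HasSubst ![(PowerSeries.X : PowerSeries R), 0] :=
    MvPowerSeries.HasSubst.X_zero
  have h4 := congrArg (MvPowerSeries.subst ![(PowerSeries.X : PowerSeries R), 0]) h2
  rw [MvPowerSeries.subst_mul hs, MvPowerSeries.subst_mul hs,
    subst_ev _ (hasSubst_op F (hX 0) (hX 1)) hs, subst_op F (hX 0) (hX 1) hs,
    subst_ev _ (hX 1) hs, MvPowerSeries.subst_X hs, MvPowerSeries.subst_X hs] at h4
  simp only [Matrix.cons_val_zero, Matrix.cons_val_one] at h4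
  rw [op_zero F hXX, ev_self_X] at h4
  have h5 : (ev (PowerSeries.derivative R φ) (0 : PowerSeries R) : PowerSeries R) = 0 := by
    apply ev_zero_arg
    rw [← PowerSeries.coeff_zero_eq_constantCoeff_apply, PowerSeries.coeff_derivative, zero_add,
      h1, zero_mul]
  rw [h5, mul_zero] at h4
  have hu : IsUnit (MvPowerSeries.subst ![(PowerSeries.X : PowerSeries R), 0]
      (MvPowerSeries.pderiv R 1 (op F (MvPowerSeries.X 0 : MvPowerSeries (Fin 2) R)
        (MvPowerSeries.X 1))) : PowerSeries R) := by
    rw [op_X]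
    have : IsUnit (PowerSeries.constantCoeff
      (MvPowerSeries.subst ![(PowerSeries.X : PowerSeries R), 0]
        (MvPowerSeries.pderiv R 1 F.toPowerSeries) : PowerSeries R)) := by
      have e := constantCoeff_subst_of_zero hs (fun i => by
        fin_cases i
        · exact PowerSeries.constantCoeff_X
        · exact _root_.map_zero _) (MvPowerSeries.pderiv R 1 F.toPowerSeries)
      have e2 : MvPowerSeries.constantCoeff (MvPowerSeries.pderiv R 1 F.toPowerSeries) = 1 := by
        rw [← MvPowerSeries.coeff_zero_eq_constantCoeff_apply, MvPowerSeries.coeff_pderiv,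
          zero_add, F.lin_coeff_Y]
        simp
      rw [e2] at e
      rw [PowerSeries.constantCoeff]
      rw [e]
      exact isUnit_one
    exact PowerSeries.isUnit_iff_constantCoeff.2 this
  exact (hu.mul_left_eq_zero).1 h4


section CharP

variable (p : ℕ) [hp : Fact p.Prime] [CharP R p]

lemma isUnit_natCast_of_not_dvd {m : ℕ} (h : ¬ p ∣ m) : IsUnit (m : R) := by
  have h1 : IsUnit (m : ZMod p) := by
    rw [isUnit_iff_ne_zero]
    intro h0
    exact h ((ZMod.natCast_eq_zero_iff m p).1 h0)
  have h2 := h1.map (ZMod.castHom (dvd_refl p) R)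
  rwa [map_natCast] at h2

lemma coeff_eq_zero_of_derivative {φ : PowerSeries R} (h : PowerSeries.derivative R φ = 0)
    {m : ℕ} (hm : ¬ p ∣ m) : PowerSeries.coeff m φ = 0 := by
  obtain _ | j := m
  · exact absurd (dvd_zero p) hm
  · have h1 := congrArg (PowerSeries.coeff j) h
    rw [PowerSeries.coeff_derivative, _root_.map_zero] at h1
    have h2 := isUnit_natCast_of_not_dvd (R := R) p hm
    rw [Nat.cast_succ] at h2
    exact (h2.mul_left_eq_zero).1 h1

lemma eq_expand_of_derivative {φ : PowerSeries R} (h : PowerSeries.derivative R φ = 0) :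
    φ = PowerSeries.expand p hp.1.ne_zero (PowerSeries.mk fun i => PowerSeries.coeff (p * i) φ) := by
  ext m
  rw [PowerSeries.coeff_expand]
  split_ifs with hm
  · rw [PowerSeries.coeff_mk, Nat.mul_div_cancel' hm]
  · exact coeff_eq_zero_of_derivative p h hm

omit [CharP R p] in
lemma ev_expand {q : ℕ} (hq : q ≠ 0) (ψ : PowerSeries R) {σ : Type*} {a : MvPowerSeries σ R}
    (ha : PowerSeries.HasSubst a) : ev (PowerSeries.expand q hq ψ) a = ev ψ (a ^ q) := by
  rw [PowerSeries.expand_apply]
  unfold ev
  rw [PowerSeries.subst_comp_subst_apply (PowerSeries.HasSubst.X_pow hq) ha]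
  congr 1
  have := PowerSeries.subst_pow ha (PowerSeries.X : PowerSeries R) q
  rw [PowerSeries.subst_X ha] at this
  exact this

lemma expand_injective {q : ℕ} (hq : q ≠ 0) {σ : Type*} {a b : MvPowerSeries σ R}
    (h : MvPowerSeries.expand q hq a = MvPowerSeries.expand q hq b) : a = b := by
  ext d
  rw [← MvPowerSeries.coeff_expand_smul q hq a, h, MvPowerSeries.coeff_expand_smul q hq b]

lemma hasSubst_pow {q : ℕ} (hq : q ≠ 0) {σ : Type*} {a : MvPowerSeries σ R}
    (ha : PowerSeries.HasSubst a) : PowerSeries.HasSubst (a ^ q) := by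
  unfold PowerSeries.HasSubst at *
  rw [map_pow]
  exact ha.pow_of_pos hq

/-- If `φ(X^q)` (with `q` a power of `p`) is a homomorphism, so is `φ` from the Frobenius twist. -/
lemma hom_of_expand {F G : FormalGroup R} {ψ : PowerSeries R} (m : ℕ)
    (h : IsFGHom F G (PowerSeries.expand (p ^ m) (pow_ne_zero m hp.1.ne_zero) ψ)) :
    IsFGHom (F.map (iterateFrobenius R p m)) G ψ := by
  have hq : p ^ m ≠ 0 := pow_ne_zero m hp.1.ne_zero
  have h0 : PowerSeries.constantCoeff ψ = 0 := by
    have := h.1
    rwa [PowerSeries.constantCoeff_expand] at this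
  apply hom_of_apply h0
  apply expand_injective hq
  have hFX := hasSubst_op F (hX (0 : Fin 2)) (hX 1)
  have h1 := hom_apply h (hX (0 : Fin 2)) (hX 1)
  rw [ev_expand hq ψ hFX, ev_expand hq ψ (hX 0), ev_expand hq ψ (hX 1)] at h1
  have hFX' := hasSubst_op (F.map (iterateFrobenius R p m)) (hX (0 : Fin 2)) (hX 1)
  -- left side
  have e1 : MvPowerSeries.expand (p ^ m) hq (ev ψ (op (F.map (iterateFrobenius R p m))
      (MvPowerSeries.X 0 : MvPowerSeries (Fin 2) R) (MvPowerSeries.X 1))) =
      ev ψ ((op F (MvPowerSeries.X 0 : MvPowerSeries (Fin 2) R) (MvPowerSeries.X 1)) ^ p ^ m) := by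
    unfold ev
    rw [PowerSeries.subst, MvPowerSeries.expand_subst _ _ hFX'.const, op_X, op_X,
      FormalGroup.map_toPowerSeries, ← MvPowerSeries.map_expand,
      MvPowerSeries.map_iterateFrobenius_expand p hp.1.ne_zero]
    rfl
  have e2 : MvPowerSeries.expand (p ^ m) hq (op G (ev ψ (MvPowerSeries.X 0 : MvPowerSeries (Fin 2) R))
      (ev ψ (MvPowerSeries.X 1))) = op G (ev ψ (MvPowerSeries.X 0 ^ p ^ m))
        (ev ψ (MvPowerSeries.X 1 ^ p ^ m)) := by
    unfold op
    rw [MvPowerSeries.expand_subst _ _ (hasSubst_pair (hasSubst_ev h0 (hX 0))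
      (hasSubst_ev h0 (hX 1)))]
    have e3 : ∀ i : Fin 2, MvPowerSeries.expand (p ^ m) hq
        (ev ψ (MvPowerSeries.X i : MvPowerSeries (Fin 2) R)) = ev ψ (MvPowerSeries.X i ^ p ^ m) := by
      intro i
      unfold ev
      rw [PowerSeries.subst, MvPowerSeries.expand_subst _ _ (hX i).const,
        MvPowerSeries.expand_X]
      rfl
    congr 1
    funext i
    fin_cases i
    · exact e3 0
    · exact e3 1
  rw [e1, e2]
  exact h1

/-- **Frobenius lemma**: in characteristic `p` a homomorphism whose coefficients at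
`X^(p^j)`, `j < m`, vanish is of the form `ψ(X^(p^m))` with `ψ` a homomorphism from the Frobenius
twist. -/
theorem exists_expand_of_hom {F G : FormalGroup R} {φ : PowerSeries R} (h : IsFGHom F G φ) (m : ℕ)
    (hc : ∀ j < m, PowerSeries.coeff (p ^ j) φ = 0) :
    ∃ ψ : PowerSeries R, IsFGHom (F.map (iterateFrobenius R p m)) G ψ ∧
      φ = PowerSeries.expand (p ^ m) (pow_ne_zero m hp.1.ne_zero) ψ := by
  induction m with
  | zero =>
    refine ⟨φ, ?_, ?_⟩
    · rw [iterateFrobenius_zero]
      have : F.map (RingHom.id R) = F := by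
        ext1
        simp only [FormalGroup.map_toPowerSeries]
        rw [MvPowerSeries.map_id]
        rfl
      rw [this]; exact h
    · simp
  | succ m ih =>
    obtain ⟨ψ, hψ, he⟩ := ih (fun j hj => hc j (by omega))
    have h1 : PowerSeries.coeff 1 ψ = 0 := by
      have := hc m (by omega)
      rw [he] at this
      have e := PowerSeries.coeff_expand_mul (p ^ m) (pow_ne_zero m hp.1.ne_zero) ψ 1
      rw [mul_one] at e
      rw [← e]; exact this
    have hd := derivative_eq_zero_of_hom hψ h1
    have he2 := eq_expand_of_derivative p hd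
    set ψ' := PowerSeries.mk fun i => PowerSeries.coeff (p * i) ψ with hψ'
    have he3 : φ = PowerSeries.expand (p ^ (m + 1)) (pow_ne_zero (m + 1) hp.1.ne_zero) ψ' := by
      rw [he, he2]
      have := PowerSeries.expand_mul (p ^ m) (pow_ne_zero m hp.1.ne_zero) p hp.1.ne_zero ψ'
      rw [← this]
      congr 1
    refine ⟨ψ', ?_, he3⟩
    rw [he3] at h
    exact hom_of_expand p (m + 1) h

end CharP

end Frobenius

section MulSeries

variable {R : Type*} [CommRing R]

/-- linear coefficient of a formal sum -/
lemma coeff_one_op (F : FormalGroup R) {a b : PowerSeries R}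
    (ha : PowerSeries.constantCoeff a = 0) (hb : PowerSeries.constantCoeff b = 0) :
    PowerSeries.coeff 1 (op F a b : PowerSeries R) =
      PowerSeries.coeff 1 a + PowerSeries.coeff 1 b := by
  have key : ∀ f : PowerSeries R, PowerSeries.coeff 1 f =
      MvPowerSeries.constantCoeff (MvPowerSeries.pderiv R () (f : MvPowerSeries Unit R)) := by
    intro f
    rw [← MvPowerSeries.coeff_zero_eq_constantCoeff_apply, MvPowerSeries.coeff_pderiv, zero_add]
    simp [PowerSeries.coeff]
  have hs := hasSubst_pair (hasSubst_of a ha) (hasSubst_of b hb)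
  have h0 : ∀ i : Fin 2, MvPowerSeries.constantCoeff (![a, b] i : MvPowerSeries Unit R) = 0 := by
    intro i
    fin_cases i
    · exact ha
    · exact hb
  rw [key, key, key, op, pderiv_subst hs, Fin.sum_univ_two, map_add, map_mul, map_mul,
    constantCoeff_subst_of_zero hs h0, constantCoeff_subst_of_zero hs h0]
  have e0 : MvPowerSeries.constantCoeff (MvPowerSeries.pderiv R 0 F.toPowerSeries) = 1 := by
    rw [← MvPowerSeries.coeff_zero_eq_constantCoeff_apply, MvPowerSeries.coeff_pderiv,
      zero_add, F.lin_coeff_X]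
    simp
  have e1 : MvPowerSeries.constantCoeff (MvPowerSeries.pderiv R 1 F.toPowerSeries) = 1 := by
    rw [← MvPowerSeries.coeff_zero_eq_constantCoeff_apply, MvPowerSeries.coeff_pderiv,
      zero_add, F.lin_coeff_Y]
    simp
  rw [e0, e1, one_mul, one_mul]
  rfl

lemma coeff_one_mulSeries (F : FormalGroup R) (m : ℕ) :
    PowerSeries.coeff 1 (mulSeries F m) = (m : R) := by
  induction m with
  | zero => simp [mulSeries_zero']
  | succ m ih =>
    rw [mulSeries_succ, coeff_one_op F (constantCoeff_mulSeries F m) (by simp), ih]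
    simp

lemma op_op_op_comm (F : FormalGroup R) [F.IsComm] {σ : Type*} {a b c d : MvPowerSeries σ R}
    (ha : PowerSeries.HasSubst a) (hb : PowerSeries.HasSubst b) (hc : PowerSeries.HasSubst c)
    (hd : PowerSeries.HasSubst d) :
    op F (op F a b) (op F c d) = op F (op F a c) (op F b d) := by
  rw [op_assoc F ha hb (hasSubst_op F hc hd), ← op_assoc F hb hc hd, op_comm F hb hc,
    op_assoc F hc hb hd, ← op_assoc F ha hc (hasSubst_op F hb hd)]

lemma ev_mulSeries_succ (F : FormalGroup R) (m : ℕ) {σ : Type*} {a : MvPowerSeries σ R}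
    (ha : PowerSeries.HasSubst a) :
    ev (mulSeries F (m + 1)) a = op F (ev (mulSeries F m) a) a := by
  rw [mulSeries_succ]
  have h := subst_op F (hasSubst_mulSeries F m) hXX ha.const
  have e : MvPowerSeries.subst (fun _ : Unit => a) (PowerSeries.X : PowerSeries R) = a :=
    PowerSeries.subst_X ha
  rw [e] at h
  exact h

lemma ev_mulSeries_zero (F : FormalGroup R) {σ : Type*} {a : MvPowerSeries σ R}
    (ha : PowerSeries.HasSubst a) : ev (mulSeries F 0) a = 0 := by
  rw [mulSeries_zero', ev, ← PowerSeries.coe_substAlgHom (R := R) ha]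
  exact _root_.map_zero _

/-- `[m]_F` is an endomorphism of a commutative formal group law. -/
lemma hom_mulSeries_self (F : FormalGroup R) [F.IsComm] (m : ℕ) :
    IsFGHom F F (mulSeries F m) := by
  apply hom_of_apply (constantCoeff_mulSeries F m)
  induction m with
  | zero =>
    rw [ev_mulSeries_zero F (hasSubst_op F (hX 0) (hX 1)), ev_mulSeries_zero F (hX 0),
      ev_mulSeries_zero F (hX 1), op_zero F hzero]
  | succ m ih =>
    have hc := constantCoeff_mulSeries F m
    rw [ev_mulSeries_succ F m (hasSubst_op F (hX 0) (hX 1)), ih, ev_mulSeries_succ F m (hX 0),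
      ev_mulSeries_succ F m (hX 1), op_op_op_comm F (hasSubst_ev hc (hX 0))
        (hasSubst_ev hc (hX 1)) (hX 0) (hX 1)]

end MulSeries

end Crest.Agent.LT93
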