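import Mathlib
import Crest.Prelude.Def_LubinTate
import Crest.Agent.LT93.FG
import Crest.Agent.LT93.Frob

set_option autoImplicit false

open Crest.LubinTate

namespace Crest.Agent.LT93

variable {R : Type*} [CommRing R]

/-- Coefficients of a two-variable series on the axes via substitution. -/
lemma coeff_single_zero_gen (P : MvPowerSeries (Fin 2) R) (m : ℕ) :
    MvPowerSeries.coeff (Finsupp.single 0 m) P =
      PowerSeries.coeff m (MvPowerSeries.subst ![PowerSeries.X, 0] P : PowerSeries R) := by
  rw [PowerSeries.coeff, MvPowerSeries.coeff_subst, finsum_eq_single _ (Finsupp.single 0 m)]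
  · simp [PowerSeries.coeff_X_pow]
  · intro d hd
    by_cases hd₁ : d 1 = 0
    · by_cases hd₀ : d 0 = m
      · exfalso
        apply hd
        ext i
        fin_cases i
        · simp [hd₀]
        · simp [hd₁]
      · simp only [smul_eq_mul]
        have : d = Finsupp.single 0 (d 0) := by
          ext i
          fin_cases i
          · simp
          · simp [hd₁]
        have e : (d.prod fun s e ↦ (![PowerSeries.X, 0] s : PowerSeries R) ^ e) =
            (PowerSeries.X : PowerSeries R) ^ (d 0) := by
          rw [this, Finsupp.prod_single_index (by simp)]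
          simp
        have e2 : PowerSeries.coeff m ((PowerSeries.X : PowerSeries R) ^ (d 0)) = 0 := by
          rw [PowerSeries.coeff_X_pow, if_neg (fun h => hd₀ h.symm)]
        rw [PowerSeries.coeff] at e2
        rw [e, e2, mul_zero]
    · have e : (d.prod fun s e ↦ (![PowerSeries.X, 0] s : PowerSeries R) ^ e) = 0 := by
        rw [Finsupp.prod]
        apply Finset.prod_eq_zero (i := 1) (by simpa using hd₁)
        simp [hd₁]
      rw [e]; simp
  · exact MvPowerSeries.HasSubst.X_zero

lemma coeff_single_one_gen (P : MvPowerSeries (Fin 2) R) (m : ℕ) :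
    MvPowerSeries.coeff (Finsupp.single 1 m) P =
      PowerSeries.coeff m (MvPowerSeries.subst ![0, PowerSeries.X] P : PowerSeries R) := by
  rw [PowerSeries.coeff, MvPowerSeries.coeff_subst, finsum_eq_single _ (Finsupp.single 1 m)]
  · simp [PowerSeries.coeff_X_pow]
  · intro d hd
    by_cases hd₁ : d 0 = 0
    · by_cases hd₀ : d 1 = m
      · exfalso
        apply hd
        ext i
        fin_cases i
        · simp [hd₁]
        · simp [hd₀]
      · simp only [smul_eq_mul]
        have : d = Finsupp.single 1 (d 1) := by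
          ext i
          fin_cases i
          · simp [hd₁]
          · simp
        have e : (d.prod fun s e ↦ (![0, PowerSeries.X] s : PowerSeries R) ^ e) =
            (PowerSeries.X : PowerSeries R) ^ (d 1) := by
          rw [this, Finsupp.prod_single_index (by simp)]
          simp
        have e2 : PowerSeries.coeff m ((PowerSeries.X : PowerSeries R) ^ (d 1)) = 0 := by
          rw [PowerSeries.coeff_X_pow, if_neg (fun h => hd₀ h.symm)]
        rw [PowerSeries.coeff] at e2
        rw [e, e2, mul_zero]
    · have e : (d.prod fun s e ↦ (![0, PowerSeries.X] s : PowerSeries R) ^ e) = 0 := by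
        rw [Finsupp.prod]
        apply Finset.prod_eq_zero (i := 0) (by simpa using hd₁)
        simp [hd₁]
      rw [e]; simp
  · exact MvPowerSeries.HasSubst.zero_X

/-- The cofactor series `K` in `F = X + Y + XY K`. -/
noncomputable def cof (F : FormalGroup R) : MvPowerSeries (Fin 2) R :=
  fun d => MvPowerSeries.coeff (d + Finsupp.single 0 1 + Finsupp.single 1 1) F.toPowerSeries

lemma coeff_cof (F : FormalGroup R) (d : Fin 2 →₀ ℕ) :
    MvPowerSeries.coeff d (cof F) =
      MvPowerSeries.coeff (d + Finsupp.single 0 1 + Finsupp.single 1 1) F.toPowerSeries := rfl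

lemma toPowerSeries_eq (F : FormalGroup R) :
    F.toPowerSeries = MvPowerSeries.X 0 + MvPowerSeries.X 1 +
      MvPowerSeries.X 0 * (MvPowerSeries.X 1 * cof F) := by
  classical
  ext d
  simp only [map_add]
  by_cases h1 : d 1 = 0
  · have hd : d = Finsupp.single 0 (d 0) := by
      ext i
      fin_cases i
      · simp
      · simp [h1]
    have e1 : MvPowerSeries.coeff d F.toPowerSeries = if d 0 = 1 then 1 else 0 := by
      rw [hd, coeff_single_zero_gen]
      have : (MvPowerSeries.subst ![PowerSeries.X, 0] F.toPowerSeries : PowerSeries R) =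
          PowerSeries.X := F.Xzero_eq_X
      rw [this, PowerSeries.coeff_X]
      simp
    have e2 : MvPowerSeries.coeff d (MvPowerSeries.X 0 * (MvPowerSeries.X 1 * cof F)) = 0 := by
      rw [← mul_assoc, mul_comm (MvPowerSeries.X 0), mul_assoc, MvPowerSeries.X,
        MvPowerSeries.coeff_monomial_mul, if_neg]
      intro h
      have := h 1
      simp [h1] at this
    have e3 : MvPowerSeries.coeff d (MvPowerSeries.X 1 : MvPowerSeries (Fin 2) R) = 0 := by
      rw [MvPowerSeries.coeff_X, if_neg]
      rw [hd]
      intro h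
      have := DFunLike.congr_fun h 1
      simp at this
    have e4 : MvPowerSeries.coeff d (MvPowerSeries.X 0 : MvPowerSeries (Fin 2) R) =
        if d 0 = 1 then 1 else 0 := by
      rw [MvPowerSeries.coeff_X]
      congr 1
      rw [eq_iff_iff]
      constructor
      · intro h; rw [h]; simp
      · intro h; rw [hd, h]
    rw [e1, e2, e3, e4]; ring
  · by_cases h0 : d 0 = 0
    · have hd : d = Finsupp.single 1 (d 1) := by
        ext i
        fin_cases i
        · simp [h0]
        · simp
      have e1 : MvPowerSeries.coeff d F.toPowerSeries = if d 1 = 1 then 1 else 0 := by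
        rw [hd, coeff_single_one_gen]
        have : (MvPowerSeries.subst ![0, PowerSeries.X] F.toPowerSeries : PowerSeries R) =
            PowerSeries.X := F.zeroX_eq_X
        rw [this, PowerSeries.coeff_X]
        simp
      have e2 : MvPowerSeries.coeff d (MvPowerSeries.X 0 * (MvPowerSeries.X 1 * cof F)) = 0 := by
        rw [MvPowerSeries.X, MvPowerSeries.coeff_monomial_mul, if_neg]
        intro h
        have := h 0
        simp [h0] at this
      have e3 : MvPowerSeries.coeff d (MvPowerSeries.X 0 : MvPowerSeries (Fin 2) R) = 0 := by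
        rw [MvPowerSeries.coeff_X, if_neg]
        rw [hd]
        intro h
        have := DFunLike.congr_fun h 0
        simp at this
      have e4 : MvPowerSeries.coeff d (MvPowerSeries.X 1 : MvPowerSeries (Fin 2) R) =
          if d 1 = 1 then 1 else 0 := by
        rw [MvPowerSeries.coeff_X]
        congr 1
        rw [eq_iff_iff]
        constructor
        · intro h; rw [h]; simp
        · intro h; rw [hd, h]
      rw [e1, e2, e3, e4]; ring
    · have e3 : MvPowerSeries.coeff d (MvPowerSeries.X 0 : MvPowerSeries (Fin 2) R) = 0 := by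
        rw [MvPowerSeries.coeff_X, if_neg]
        intro h
        rw [h] at h1
        simp at h1
      have e4 : MvPowerSeries.coeff d (MvPowerSeries.X 1 : MvPowerSeries (Fin 2) R) = 0 := by
        rw [MvPowerSeries.coeff_X, if_neg]
        intro h
        rw [h] at h0
        simp at h0
      have hle0 : Finsupp.single 0 1 ≤ d := by
        simp only [Finsupp.single_le_iff]; omega
      have hle1 : Finsupp.single 1 1 ≤ d - Finsupp.single 0 1 := by
        simp only [Finsupp.single_le_iff]
        have : (d - Finsupp.single 0 1 : Fin 2 →₀ ℕ) 1 = d 1 := by simp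
        rw [this]; omega
      have e2 : MvPowerSeries.coeff d (MvPowerSeries.X 0 * (MvPowerSeries.X 1 * cof F)) =
          MvPowerSeries.coeff d F.toPowerSeries := by
        rw [MvPowerSeries.X, MvPowerSeries.coeff_monomial_mul, if_pos hle0, one_mul,
          MvPowerSeries.X, MvPowerSeries.coeff_monomial_mul, if_pos hle1, one_mul, coeff_cof]
        congr 2
        have a1 := tsub_add_cancel_of_le hle1
        have a0 := tsub_add_cancel_of_le hle0
        rw [add_assoc, add_comm (Finsupp.single 0 1) (Finsupp.single 1 1), ← add_assoc, a1, a0]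
      rw [e2, e3, e4]; ring

/-- `F(u,v) = u + v + u v K(u,v)`. -/
lemma op_eq (F : FormalGroup R) {σ : Type*} {u v : MvPowerSeries σ R}
    (hu : PowerSeries.HasSubst u) (hv : PowerSeries.HasSubst v) :
    op F u v = u + v + u * (v * MvPowerSeries.subst ![u, v] (cof F)) := by
  have hs := hasSubst_pair hu hv
  unfold op
  conv_lhs => rw [toPowerSeries_eq F]
  rw [MvPowerSeries.subst_add hs, MvPowerSeries.subst_add hs, MvPowerSeries.subst_mul hs,
    MvPowerSeries.subst_mul hs, MvPowerSeries.subst_X hs, MvPowerSeries.subst_X hs]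
  rfl


/-- Substitution preserves congruences modulo `X^N`. -/
lemma X_pow_dvd_subst_sub {σ : Type*} {a b : σ → PowerSeries R}
    (ha : MvPowerSeries.HasSubst a) (hb : MvPowerSeries.HasSubst b) {N : ℕ}
    (h : ∀ i, (PowerSeries.X : PowerSeries R) ^ N ∣ a i - b i) (f : MvPowerSeries σ R) :
    (PowerSeries.X : PowerSeries R) ^ N ∣
      (MvPowerSeries.subst a f : PowerSeries R) - MvPowerSeries.subst b f := by
  rw [PowerSeries.X_pow_dvd_iff]
  intro m hm
  rw [map_sub, sub_eq_zero, PowerSeries.coeff, MvPowerSeries.coeff_subst ha,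
    MvPowerSeries.coeff_subst hb]
  refine finsum_congr fun d => ?_
  congr 1
  have hdvd : (PowerSeries.X : PowerSeries R) ^ N ∣
      (d.prod fun s e => a s ^ e) - d.prod fun s e => b s ^ e := by
    rw [← Ideal.mem_span_singleton, ← Ideal.Quotient.eq]
    simp only [Finsupp.prod, map_prod, map_pow]
    refine Finset.prod_congr rfl fun i _ => ?_
    congr 1
    rw [Ideal.Quotient.eq, Ideal.mem_span_singleton]
    exact h i
  have := (PowerSeries.X_pow_dvd_iff.1 hdvd) m hm
  rw [map_sub, sub_eq_zero] at this
  exact this

lemma X_pow_dvd_op_sub (F : FormalGroup R) {a b b' : PowerSeries R}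
    (ha : PowerSeries.constantCoeff a = 0) (hb : PowerSeries.constantCoeff b = 0)
    (hb' : PowerSeries.constantCoeff b' = 0) {N : ℕ}
    (h : (PowerSeries.X : PowerSeries R) ^ N ∣ b - b') :
    (PowerSeries.X : PowerSeries R) ^ N ∣ (op F a b : PowerSeries R) - op F a b' := by
  refine X_pow_dvd_subst_sub (hasSubst_pair (hasSubst_of a ha) (hasSubst_of b hb))
    (hasSubst_pair (hasSubst_of a ha) (hasSubst_of b' hb')) (fun i => ?_) F.toPowerSeries
  fin_cases i
  · simp
  · exact h

/-- One step of the construction of the inverse series. -/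
lemma neg_step (F : FormalGroup R) {N : ℕ} {i : PowerSeries R}
    (h0 : PowerSeries.constantCoeff i = 0)
    (h : (PowerSeries.X : PowerSeries R) ^ (N + 1) ∣ (op F PowerSeries.X i : PowerSeries R)) :
    ∃ i' : PowerSeries R, PowerSeries.constantCoeff i' = 0 ∧
      (PowerSeries.X : PowerSeries R) ^ (N + 2) ∣ (op F PowerSeries.X i' : PowerSeries R) ∧
      (PowerSeries.X : PowerSeries R) ^ (N + 1) ∣ i' - i := by
  set w : PowerSeries R := op F PowerSeries.X i with hw
  set δ : PowerSeries R := - (PowerSeries.C (PowerSeries.coeff (N + 1) w) *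
    PowerSeries.X ^ (N + 1)) with hδ
  have hδ0 : PowerSeries.constantCoeff δ = 0 := by
    rw [hδ, map_neg, map_mul, map_pow, PowerSeries.constantCoeff_X]
    simp
  have hδd : (PowerSeries.X : PowerSeries R) ^ (N + 1) ∣ δ :=
    (Dvd.intro_left _ rfl).neg_right
  have hw0 : PowerSeries.constantCoeff w = 0 :=
    constantCoeff_op F (a := (PowerSeries.X : PowerSeries R)) PowerSeries.constantCoeff_X h0
  refine ⟨op F i δ, constantCoeff_op F h0 hδ0, ?_, ?_⟩
  · have e : (op F PowerSeries.X (op F i δ) : PowerSeries R) = op F w δ :=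
      (op_assoc F hXX (hasSubst_of i h0) (hasSubst_of δ hδ0)).symm
    rw [e, op_eq F (hasSubst_of w hw0) (hasSubst_of δ hδ0)]
    refine dvd_add ?_ ?_
    · rw [PowerSeries.X_pow_dvd_iff]
      intro m hm
      rcases Nat.lt_or_ge m (N + 1) with h1 | h1
      · rw [map_add, PowerSeries.X_pow_dvd_iff.1 h m h1, PowerSeries.X_pow_dvd_iff.1 hδd m h1,
          add_zero]
      · have : m = N + 1 := by omega
        subst this
        rw [map_add, hδ, map_neg, PowerSeries.coeff_C_mul, PowerSeries.coeff_X_pow_self, mul_one,
          add_neg_cancel]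
    · have h2 : (PowerSeries.X : PowerSeries R) ^ (N + 2) ∣
          (PowerSeries.X : PowerSeries R) ^ (N + 1) * PowerSeries.X ^ (N + 1) := by
        rw [← pow_add]
        exact pow_dvd_pow _ (by omega)
      refine h2.trans ?_
      exact mul_dvd_mul h (Dvd.dvd.mul_right hδd _)
  · rw [op_eq F (hasSubst_of i h0) (hasSubst_of δ hδ0)]
    have e : i + δ + i * (δ * MvPowerSeries.subst ![i, δ] (cof F)) - i =
        δ * (1 + i * MvPowerSeries.subst ![i, δ] (cof F)) := by ring
    rw [e]
    exact Dvd.dvd.mul_right hδd _

theorem exists_neg (F : FormalGroup R) :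
    ∃ i : PowerSeries R, PowerSeries.constantCoeff i = 0 ∧
      (op F PowerSeries.X i : PowerSeries R) = 0 := by
  -- a compatible sequence
  let T := {x : ℕ × PowerSeries R // PowerSeries.constantCoeff x.2 = 0 ∧
    (PowerSeries.X : PowerSeries R) ^ (x.1 + 1) ∣ (op F PowerSeries.X x.2 : PowerSeries R)}
  have step : ∀ t : T, ∃ t' : T, t'.1.1 = t.1.1 + 1 ∧
      (PowerSeries.X : PowerSeries R) ^ (t.1.1 + 1) ∣ t'.1.2 - t.1.2 := by
    rintro ⟨⟨N, i⟩, h0, h⟩
    obtain ⟨i', h0', h', hd⟩ := neg_step F h0 h
    exact ⟨⟨⟨N + 1, i'⟩, h0', h'⟩, rfl, hd⟩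
  choose next hnext hd using step
  let t0 : T := ⟨⟨0, 0⟩, by simp, by
    have := op_zero F (hXX (R := R))
    rw [this]; simp⟩
  let s : ℕ → T := fun k => Nat.rec t0 (fun _ t => next t) k
  have hs0 : s 0 = t0 := rfl
  have hs : ∀ k, s (k + 1) = next (s k) := fun _ => rfl
  have hidx : ∀ k, (s k).1.1 = k := by
    intro k
    induction k with
    | zero => rfl
    | succ k ih => rw [hs, hnext, ih]
  set u : ℕ → PowerSeries R := fun k => (s k).1.2 with hu
  have hu0 : ∀ k, PowerSeries.constantCoeff (u k) = 0 := fun k => (s k).2.1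
  have hud : ∀ k, (PowerSeries.X : PowerSeries R) ^ (k + 1) ∣ u (k + 1) - u k := by
    intro k
    have := hd (s k)
    rw [hidx] at this
    exact this
  have hop : ∀ k, (PowerSeries.X : PowerSeries R) ^ (k + 1) ∣
      (op F PowerSeries.X (u k) : PowerSeries R) := by
    intro k
    have := (s k).2.2
    rw [hidx] at this
    exact this
  -- stabilisation of coefficients
  have hstab : ∀ k m, m ≤ k → ∀ l, k ≤ l → PowerSeries.coeff m (u l) = PowerSeries.coeff m (u k) := by
    intro k m hm l hl
    induction l, hl using Nat.le_induction with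
    | base => rfl
    | succ l hl ih =>
      have := PowerSeries.X_pow_dvd_iff.1 (hud l) m (by omega)
      rw [map_sub, sub_eq_zero] at this
      rw [this, ih]
  set i : PowerSeries R := PowerSeries.mk fun m => PowerSeries.coeff m (u m) with hi
  have hcongr : ∀ k, (PowerSeries.X : PowerSeries R) ^ (k + 1) ∣ i - u k := by
    intro k
    rw [PowerSeries.X_pow_dvd_iff]
    intro m hm
    rw [map_sub, hi, PowerSeries.coeff_mk, hstab m m le_rfl k (by omega), sub_self]
  have hi0 : PowerSeries.constantCoeff i = 0 := by
    rw [← PowerSeries.coeff_zero_eq_constantCoeff_apply, hi, PowerSeries.coeff_mk,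
      PowerSeries.coeff_zero_eq_constantCoeff_apply, hu0]
  refine ⟨i, hi0, ?_⟩
  ext m
  have h1 := X_pow_dvd_op_sub F (a := (PowerSeries.X : PowerSeries R)) (by simp) hi0 (hu0 m)
    (hcongr m)
  have h2 := dvd_add h1 (hop m)
  rw [sub_add_cancel] at h2
  exact PowerSeries.X_pow_dvd_iff.1 h2 m (by omega)

end Crest.Agent.LT93
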