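import Mathlib
import Crest.Prelude.Def_LubinTate
import Crest.Agent.LT.Ring
import Crest.Agent.LT93.FG
import Crest.Agent.LT93.Frob
import Crest.Agent.LT.Stab

set_option autoImplicit false

open Crest.LubinTate

namespace Crest.Agent.LT93

open Crest.Agent.LT

variable {p : ℕ} [hp : Fact p.Prime] {n : ℕ}

lemma heightIdeal_mono (H : FormalGroup (LTRing p n)) : Monotone (heightIdeal p n H) :=
  monotone_nat_of_le_succ fun _ => le_sup_left

lemma coeff_pow_mem_heightIdeal (H : FormalGroup (LTRing p n)) {j h : ℕ} (hj : j < h) :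
    PowerSeries.coeff (p ^ j) (mulSeries H p) ∈ heightIdeal p n H h := by
  apply heightIdeal_mono H (Nat.succ_le_of_lt hj)
  exact Ideal.mem_sup_right (Ideal.subset_span rfl)

lemma heightIdeal_le_iff (H : FormalGroup (LTRing p n)) (h : ℕ) (J : Ideal (LTRing p n)) :
    heightIdeal p n H h ≤ J ↔ ∀ j < h, PowerSeries.coeff (p ^ j) (mulSeries H p) ∈ J := by
  constructor
  · intro hJ j hj
    exact hJ (coeff_pow_mem_heightIdeal H hj)
  · intro hJ
    induction h with
    | zero => exact bot_le
    | succ h ih =>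
      refine sup_le (ih fun j hj => hJ j (by omega)) ?_
      rw [Ideal.span_le]
      rintro _ rfl
      exact hJ h (by omega)

instance map_isComm {R S : Type*} [CommRing R] [CommRing S] (F : FormalGroup R) [hF : F.IsComm]
    (f : R →+* S) : (F.map f).IsComm where
  comm := by
    have h := map_op F f (hX (1 : Fin 2)) (hX 0)
    rw [op_comm F (hX 1) (hX 0), op_X, MvPowerSeries.map_X, MvPowerSeries.map_X] at h
    exact h

lemma charP_of_prime {R : Type*} [CommRing R] [Nontrivial R] (h : (p : R) = 0) : CharP R p := by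
  have := CharP.ringChar_of_prime_eq_zero hp.1 h
  exact ringChar.of_eq this

/-- Modulo `I_h` the `p`-series is a series in `X^(p^h)`. -/
theorem coeff_mulSeries_mem (H : FormalGroup (LTRing p n)) [H.IsComm] {h i : ℕ}
    (hi : ¬ p ^ h ∣ i) : PowerSeries.coeff i (mulSeries H p) ∈ heightIdeal p n H h := by
  by_cases htop : heightIdeal p n H h = ⊤
  · rw [htop]; trivial
  have hh : 0 < h := by
    rcases Nat.eq_zero_or_pos h with rfl | h0
    · exact absurd (by simp) hi
    · exact h0
  set I := heightIdeal p n H h with hI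
  have : Nontrivial (LTRing p n ⧸ I) := Ideal.Quotient.nontrivial_iff.2 htop
  have hv : ∀ j < h, PowerSeries.coeff (p ^ j)
      (mulSeries (H.map (Ideal.Quotient.mk I)) p) = 0 := by
    intro j hj
    rw [← mulSeries_map, PowerSeries.coeff_map, Ideal.Quotient.eq_zero_iff_mem]
    exact coeff_pow_mem_heightIdeal H hj
  have h1 := hv 0 hh
  rw [pow_zero, coeff_one_mulSeries] at h1
  have := charP_of_prime h1
  obtain ⟨ψ, -, hψ⟩ := exists_expand_of_hom p
    (hom_mulSeries_self (H.map (Ideal.Quotient.mk I)) p) h hv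
  have h2 : PowerSeries.coeff i (mulSeries (H.map (Ideal.Quotient.mk I)) p) = 0 := by
    rw [hψ]
    exact PowerSeries.coeff_expand_of_not_dvd _ _ _ hi
  rwa [← mulSeries_map, PowerSeries.coeff_map, Ideal.Quotient.eq_zero_iff_mem] at h2

/-- `X^N ∣ ev φ θ` if `X^N ∣ φ`. -/
lemma X_pow_dvd_ev {R : Type*} [CommRing R] {φ θ : PowerSeries R} {N : ℕ}
    (h0 : PowerSeries.constantCoeff θ = 0) (h : PowerSeries.X ^ N ∣ φ) :
    PowerSeries.X ^ N ∣ (ev φ θ : PowerSeries R) := by
  obtain ⟨ψ, rfl⟩ := h
  have hs := hasSubst_of θ h0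
  have e : (ev (PowerSeries.X ^ N * ψ) θ : PowerSeries R) = θ ^ N * ev ψ θ := by
    unfold ev
    have := PowerSeries.subst_mul hs (PowerSeries.X ^ N : PowerSeries R) ψ
    rw [PowerSeries.subst_pow hs, PowerSeries.subst_X hs] at this
    exact this
  rw [e]
  exact Dvd.dvd.mul_right (pow_dvd_pow_of_dvd (PowerSeries.X_dvd_iff.2 h0) N) _

/-- A stabilizer map carries `I_h` into `I_h`. -/
theorem map_heightIdeal_le (H : FormalGroup (LTRing p n)) [H.IsComm]
    {g : PowerSeries (GaloisField p n)} (hg : IsUnit (PowerSeries.coeff 1 g))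
    {φ : LTRing p n →ₐ[WittVector p (GaloisField p n)] LTRing p n}
    (hφ : IsStabilizerMap p n H g φ) (h : ℕ) :
    ∀ j < h, φ (PowerSeries.coeff (p ^ j) (mulSeries H p)) ∈ heightIdeal p n H h := by
  intro j hj
  obtain ⟨hres, θ, hθ, hm⟩ := hφ
  have hu := isUnit_coeff_one_of_map hm hg
  set I := heightIdeal p n H h with hI
  set π := Ideal.Quotient.mk I with hπ
  have h1 := hom_mulSeries hθ p
  rw [← mulSeries_map] at h1
  -- push to the quotient
  have h2 := congrArg (PowerSeries.map π) h1
  have hφp : PowerSeries.constantCoeff (PowerSeries.map φ.toRingHom (mulSeries H p)) = 0 :=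
    constantCoeff_map' _ (constantCoeff_mulSeries H p)
  have e1 : PowerSeries.map π (ev θ (PowerSeries.map φ.toRingHom (mulSeries H p)) :
      PowerSeries (LTRing p n)) = (ev (PowerSeries.map π θ)
        (PowerSeries.map π (PowerSeries.map φ.toRingHom (mulSeries H p))) :
          PowerSeries (LTRing p n ⧸ I)) :=
    map_ev θ π (hasSubst_of _ hφp)
  have e2 : PowerSeries.map π (ev (mulSeries H p) θ : PowerSeries (LTRing p n)) =
      (ev (PowerSeries.map π (mulSeries H p)) (PowerSeries.map π θ) :
        PowerSeries (LTRing p n ⧸ I)) :=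
    map_ev (mulSeries H p) π (hasSubst_of _ hθ.1)
  have h3 : (ev (PowerSeries.map π θ)
        (PowerSeries.map π (PowerSeries.map φ.toRingHom (mulSeries H p))) :
          PowerSeries (LTRing p n ⧸ I)) =
      (ev (PowerSeries.map π (mulSeries H p)) (PowerSeries.map π θ) :
        PowerSeries (LTRing p n ⧸ I)) := by
    rw [← e1, ← e2]; exact h2
  have hθ0 : PowerSeries.constantCoeff (PowerSeries.map π θ) = 0 := constantCoeff_map' _ hθ.1
  have hθu : IsUnit (PowerSeries.coeff 1 (PowerSeries.map π θ)) := by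
    rw [PowerSeries.coeff_map]; exact hu.map π
  have hd : PowerSeries.X ^ (p ^ h) ∣ PowerSeries.map π (mulSeries H p) := by
    rw [PowerSeries.X_pow_dvd_iff]
    intro m hm
    rcases Nat.eq_zero_or_pos m with rfl | hm0
    · rw [PowerSeries.coeff_zero_eq_constantCoeff_apply]
      exact constantCoeff_map' _ (constantCoeff_mulSeries H p)
    · rw [PowerSeries.coeff_map, Ideal.Quotient.eq_zero_iff_mem]
      exact coeff_mulSeries_mem H (fun hdvd => absurd (Nat.le_of_dvd hm0 hdvd) (by omega))
  have hd2 := X_pow_dvd_ev hθ0 hd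
  rw [← h3] at hd2
  have hφp' : PowerSeries.constantCoeff
      (PowerSeries.map π (PowerSeries.map φ.toRingHom (mulSeries H p))) = 0 :=
    constantCoeff_map' _ hφp
  have hd3 := X_pow_dvd_ev (φ := cinv (PowerSeries.map π θ) hθu)
    (constantCoeff_map' π (θ := θ) hθ.1) (N := 0) (one_dvd _)
  -- apply the inverse series
  have h4 := ev_cinv_ev (PowerSeries.map π θ) hθ0 hθu (hasSubst_of _ hφp')
  have hd4 : PowerSeries.X ^ (p ^ h) ∣
      PowerSeries.map π (PowerSeries.map φ.toRingHom (mulSeries H p)) := by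
    set w : PowerSeries (LTRing p n ⧸ I) := ev (PowerSeries.map π θ)
      (PowerSeries.map π (PowerSeries.map φ.toRingHom (mulSeries H p))) with hw
    have hc0 := constantCoeff_cinv (PowerSeries.map π θ) hθu
    obtain ⟨c, hc⟩ := PowerSeries.X_dvd_iff.2 hc0
    have hw0 : PowerSeries.constantCoeff w = 0 := constantCoeff_ev hθ0 hφp'
    have hsw := hasSubst_of w hw0
    have e3 : (ev (cinv (PowerSeries.map π θ) hθu) w : PowerSeries (LTRing p n ⧸ I)) =
        w * ev c w := by
      rw [hc]
      unfold ev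
      have := PowerSeries.subst_mul hsw (PowerSeries.X : PowerSeries (LTRing p n ⧸ I)) c
      rw [PowerSeries.subst_X hsw] at this
      exact this
    have e4 : (ev (cinv (PowerSeries.map π θ) hθu) w : PowerSeries (LTRing p n ⧸ I)) =
      PowerSeries.map π (PowerSeries.map φ.toRingHom (mulSeries H p)) := h4
    rw [← e4, e3]
    exact Dvd.dvd.mul_right hd2 _
  rw [PowerSeries.X_pow_dvd_iff] at hd4
  have h5 := hd4 (p ^ j) (Nat.pow_lt_pow_right hp.1.one_lt hj)
  rw [PowerSeries.coeff_map, PowerSeries.coeff_map, Ideal.Quotient.eq_zero_iff_mem] at h5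
  exact h5

/-- Height ideals are stable. -/
theorem isStable_heightIdeal {Γ : FormalGroup (GaloisField p n)} {H : FormalGroup (LTRing p n)}
    [H.IsComm] (hH : IsUniversalDeformation p n Γ H) (M h : ℕ) :
    IsStableIdeal p n Γ H M (heightIdeal p n H h) := by
  intro g φ hg _ hφ
  obtain ⟨ψ, hψ, h1, h2⟩ := exists_inverse hH hg hφ
  have key : ∀ {g : PowerSeries (GaloisField p n)}
      {φ : LTRing p n →ₐ[WittVector p (GaloisField p n)] LTRing p n}, IsFGAut Γ g →
      IsStabilizerMap p n H g φ →
      heightIdeal p n H h ≤ Ideal.comap φ.toRingHom (heightIdeal p n H h) := by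
    intro g φ hg hφ
    rw [heightIdeal_le_iff]
    intro j hj
    rw [Ideal.mem_comap]
    exact map_heightIdeal_le H hg.2 hφ h j hj
  apply le_antisymm
  · intro x hx
    have h3 := key (isFGAut_cinv hg) hψ (Ideal.mem_comap.1 hx)
    rw [Ideal.mem_comap] at h3
    have h4 : ψ (φ x) = x := DFunLike.congr_fun h1 x
    have h5 : ψ (φ x) ∈ heightIdeal p n H h := h3
    rwa [h4] at h5
  · exact key hg hφ

/-- For `P` stable containing `I_h` (or any stable ideal), `P + (v_h)` is stable when
`I_h ≤ P`. -/
theorem isStable_sup_span {Γ : FormalGroup (GaloisField p n)} {H : FormalGroup (LTRing p n)}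
    [H.IsComm] (hH : IsUniversalDeformation p n Γ H) {M h : ℕ} {P : Ideal (LTRing p n)}
    (hP : IsStableIdeal p n Γ H M P) (hIP : heightIdeal p n H h ≤ P) :
    IsStableIdeal p n Γ H M
      (P ⊔ Ideal.span {PowerSeries.coeff (p ^ h) (mulSeries H p)}) := by
  have e : P ⊔ Ideal.span {PowerSeries.coeff (p ^ h) (mulSeries H p)} =
      P ⊔ heightIdeal p n H (h + 1) := by
    have : heightIdeal p n H (h + 1) = heightIdeal p n H h ⊔
      Ideal.span {PowerSeries.coeff (p ^ h) (mulSeries H p)} := rfl
    rw [this, ← sup_assoc, sup_eq_left.2 hIP]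
  rw [e]
  intro g φ hg hgM hφ
  have h1 := hP g φ hg hgM hφ
  have h2 := isStable_heightIdeal hH M (h + 1) g φ hg hgM hφ
  have hbij := stabilizerMap_bijective hH hg hφ
  have hsurj : Function.Surjective φ.toRingHom := hbij.2
  have hinj : Function.Injective φ.toRingHom := hbij.1
  have h3 : Ideal.map φ.toRingHom P = P := by
    conv_lhs => rw [← h1]
    exact Ideal.map_comap_of_surjective _ hsurj _
  have h4 : Ideal.map φ.toRingHom (heightIdeal p n H (h + 1)) = heightIdeal p n H (h + 1) := by
    conv_lhs => rw [← h2]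
    exact Ideal.map_comap_of_surjective _ hsurj _
  have h5 : Ideal.map φ.toRingHom (P ⊔ heightIdeal p n H (h + 1)) =
      P ⊔ heightIdeal p n H (h + 1) := by
    rw [Ideal.map_sup, h3, h4]
  conv_lhs => rw [← h5]
  exact Ideal.comap_map_of_bijective _ hbij

end Crest.Agent.LT93
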