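import Mathlib

set_option autoImplicit false

namespace Crest.Agent.LT93

variable {σ : Type*} [Finite σ] {R : Type*} [CommRing R] {S : Type*} [CommRing S]

/-- Evaluation of power series at elements of an ideal `I` for which `S` is adically complete. -/
theorem exists_adicEval (I : Ideal S) [hI : IsAdicComplete I S] (φ : R →+* S) (a : σ → S)
    (ha : ∀ i, a i ∈ I) :
    ∃ Φ : MvPowerSeries σ R →+* S, (∀ r, Φ (MvPowerSeries.C r) = φ r) ∧
      (∀ i, Φ (MvPowerSeries.X i) = a i) ∧
      (∀ N f, (∀ d : σ →₀ ℕ, d.degree < N → MvPowerSeries.coeff d f = 0) → Φ f ∈ I ^ N) := by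
  classical
  let _ : WithIdeal S := ⟨I⟩
  let _ : UniformSpace R := ⊥
  have _ : DiscreteUniformity R := ⟨rfl⟩
  have hadic : IsAdic I := rfl
  have hc := (IsAdic.isAdicComplete_iff hadic).1 hI
  have _ : CompleteSpace S := hc.1
  have _ : T2Space S := hc.2
  have hφ : Continuous φ := continuous_of_discreteTopology
  have hev : MvPowerSeries.HasEval a := by
    refine ⟨fun s => WithIdeal.isTopologicallyNilpotent_of_mem (ha s), ?_⟩
    rw [Filter.cofinite_eq_bot]
    exact Filter.tendsto_bot
  refine ⟨MvPowerSeries.eval₂Hom hφ hev, fun r => ?_, fun i => ?_, fun N f hf => ?_⟩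
  · rw [MvPowerSeries.coe_eval₂Hom, MvPowerSeries.eval₂_C]
  · rw [MvPowerSeries.coe_eval₂Hom, MvPowerSeries.eval₂_X]
  · rw [MvPowerSeries.coe_eval₂Hom]
    have hsum := MvPowerSeries.hasSum_eval₂ hφ hev f
    have hclosed : IsClosed ((I ^ N : Ideal S) : Set S) := by
      have hopen : IsOpen ((I ^ N : Ideal S) : Set S) := by
        rw [isOpen_iff_mem_nhds]
        intro x hx
        rw [(hadic.hasBasis_nhds x).mem_iff]
        refine ⟨N, trivial, ?_⟩
        rintro _ ⟨y, hy, rfl⟩
        exact add_mem hx hy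
      exact (AddSubgroup.isClosed_of_isOpen (I ^ N : Ideal S).toAddSubgroup hopen)
    refine hclosed.mem_of_tendsto hsum (Filter.Eventually.of_forall fun s => ?_)
    refine sum_mem fun d _ => ?_
    by_cases hd : d.degree < N
    · rw [hf d hd, map_zero, zero_mul]; exact zero_mem _
    · apply Ideal.mul_mem_left
      apply Ideal.pow_le_pow_right (not_lt.1 hd)
      rw [Finsupp.degree_apply, Finsupp.prod, ← Finset.prod_pow_eq_pow_sum]
      refine Ideal.prod_mem_prod fun i _ => ?_
      exact Ideal.pow_mem_pow (ha i) _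

end Crest.Agent.LT93
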