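import Mathlib
import Crest.Prelude.Def_LubinTate
import Crest.Agent.LT.FG
import Crest.Agent.LT.Ring
import Crest.Agent.LT.Stab
import Crest.Agent.LT.Act
import Crest.Agent.LT93.Height

/-! Tangent space computation: linear parts of `v_1, …, v_{n-1}` are independent. -/

set_option autoImplicit false

open Crest.LubinTate MvPowerSeries

namespace Crest.Agent.LT93

open Crest.Agent.LT

variable {p : ℕ} [hp : Fact p.Prime] {n : ℕ}

local notation "k" => GaloisField p n
local notation "W" => WittVector p (GaloisField p n)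

/-- The ring hom `k[[u]] ⊇ … → k[ε]`, `f ↦ f(0) + ε ∑ λ_i ∂_i f(0)`, on `E`. -/
noncomputable def dualHom (lam : Fin (n - 1) → k) : LTRing p n →+* DualNumber k where
  toFun f := TrivSqZeroExt.inl (LTRing.residue p n f) +
    TrivSqZeroExt.inr (∑ i, lam i * WittVector.constantCoeff
      (MvPowerSeries.coeff (Finsupp.single i 1) f))
  map_one' := by
    classical
    have : ∀ i : Fin (n-1), MvPowerSeries.coeff (Finsupp.single i 1) (1 : LTRing p n) = 0 := by
      intro i
      rw [MvPowerSeries.coeff_one, if_neg]
      simp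
    simp [this]
  map_mul' f g := by
    classical
    have h : ∀ i : Fin (n-1), MvPowerSeries.coeff (Finsupp.single i 1) (f * g) =
        MvPowerSeries.constantCoeff f * MvPowerSeries.coeff (Finsupp.single i 1) g +
        MvPowerSeries.coeff (Finsupp.single i 1) f * MvPowerSeries.constantCoeff g := by
      intro i
      rw [MvPowerSeries.coeff_mul, Finsupp.antidiagonal_single, Finset.sum_map]
      simp [Finset.Nat.antidiagonal_succ]
    ext
    · simp
    · simp only [h, map_add, map_mul, TrivSqZeroExt.snd_add, TrivSqZeroExt.snd_inl,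
        TrivSqZeroExt.snd_inr, zero_add, TrivSqZeroExt.snd_mul, TrivSqZeroExt.fst_add,
        TrivSqZeroExt.fst_inl, TrivSqZeroExt.fst_inr, add_zero, smul_eq_mul,
        MulOpposite.smul_eq_mul_unop, MulOpposite.unop_op, Finset.mul_sum, Finset.sum_mul]
      rw [← Finset.sum_add_distrib]
      refine Finset.sum_congr rfl fun i _ => ?_
      simp only [LTRing.residue, RingHom.comp_apply]
      ring
  map_zero' := by simp
  map_add' f g := by
    ext
    · simp
    · simp only [map_add, mul_add, Finset.sum_add_distrib, TrivSqZeroExt.snd_add,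
        TrivSqZeroExt.snd_inl, TrivSqZeroExt.snd_inr, zero_add]

lemma dualHom_apply (lam : Fin (n - 1) → k) (f : LTRing p n) :
    dualHom lam f = TrivSqZeroExt.inl (LTRing.residue p n f) +
    TrivSqZeroExt.inr (∑ i, lam i * WittVector.constantCoeff
      (MvPowerSeries.coeff (Finsupp.single i 1) f)) := rfl

lemma fst_dualHom (lam : Fin (n - 1) → k) (f : LTRing p n) :
    TrivSqZeroExt.fst (dualHom lam f) = LTRing.residue p n f := by
  rw [dualHom_apply]; simp

lemma snd_dualHom (lam : Fin (n - 1) → k) (f : LTRing p n) :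
    TrivSqZeroExt.snd (dualHom lam f) = ∑ i, lam i * WittVector.constantCoeff
      (MvPowerSeries.coeff (Finsupp.single i 1) f) := by
  rw [dualHom_apply]; simp

/-- the `W`-algebra structure on the dual numbers -/
@[instance_reducible] noncomputable def algW : Algebra W (DualNumber k) :=
  ((TrivSqZeroExt.inlHom k k).comp WittVector.constantCoeff).toAlgebra

/-- `dualHom` as an algebra hom -/
noncomputable def dualAlgHom (lam : Fin (n - 1) → k) :
    letI := algW (p := p) (n := n); LTRing p n →ₐ[W] DualNumber k :=
  letI := algW (p := p) (n := n)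
  { dualHom lam with
    commutes' := by
      classical
      intro r
      have h1 : (algebraMap W (LTRing p n)) r = MvPowerSeries.C r := rfl
      have h2 : (algebraMap W (DualNumber k)) r =
        TrivSqZeroExt.inl (WittVector.constantCoeff r) := rfl
      have h3 : ∀ i : Fin (n-1), MvPowerSeries.coeff (Finsupp.single i 1)
          (MvPowerSeries.C r : LTRing p n) = 0 := by
        intro i
        rw [MvPowerSeries.coeff_C, if_neg]
        simp
      rw [h1, h2]
      change dualHom lam (MvPowerSeries.C r) = _
      rw [dualHom_apply]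
      simp only [h3, _root_.map_zero, mul_zero, Finset.sum_const_zero]
      simp [LTRing.residue] }

/-- the base point `f ↦ residue f` -/
lemma dualHom_zero (f : LTRing p n) : dualHom (p := p) (n := n) 0 f =
    TrivSqZeroExt.inl (LTRing.residue p n f) := by
  rw [dualHom_apply]; simp

instance charP_galois : CharP k p := inferInstance

instance charP_dual : CharP (DualNumber k) p :=
  charP_of_injective_algebraMap (algebraMap k (DualNumber k)).injective p

lemma iterateFrobenius_dual (hn : 1 ≤ n) (x : DualNumber k) :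
    iterateFrobenius (DualNumber k) p n x = TrivSqZeroExt.inl (TrivSqZeroExt.fst x) := by
  rw [iterateFrobenius_def]
  have hq : 2 ≤ p ^ n := by
    calc 2 ≤ p := hp.1.two_le
      _ = p ^ 1 := (pow_one p).symm
      _ ≤ p ^ n := Nat.pow_le_pow_right hp.1.pos hn
  have hx : x = TrivSqZeroExt.inl (TrivSqZeroExt.fst x) +
      TrivSqZeroExt.inr (TrivSqZeroExt.snd x) := (TrivSqZeroExt.inl_fst_add_inr_snd_eq x).symm
  have h1 : (x : DualNumber k) ^ p ^ n = (TrivSqZeroExt.inl (TrivSqZeroExt.fst x)) ^ p ^ n +
      (TrivSqZeroExt.inr (TrivSqZeroExt.snd x)) ^ p ^ n := by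
    conv_lhs => rw [hx]
    exact add_pow_char_pow _ _ p n
  rw [h1]
  have h2 : (TrivSqZeroExt.inr (TrivSqZeroExt.snd x) : DualNumber k) ^ p ^ n = 0 := by
    have : (TrivSqZeroExt.inr (TrivSqZeroExt.snd x) : DualNumber k) ^ 2 = 0 := by
      rw [pow_two, TrivSqZeroExt.inr_mul_inr]
    obtain ⟨m, hm⟩ := Nat.exists_eq_add_of_le hq
    rw [hm, pow_add, this, zero_mul]
  rw [h2, add_zero, TrivSqZeroExt.inl_pow]
  congr 1
  have hcard := GaloisField.card p n (by omega)
  have : Fintype k := Fintype.ofFinite k
  have h3 := FiniteField.pow_card (K := k) (TrivSqZeroExt.fst x)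
  rw [← Nat.card_eq_fintype_card, hcard] at h3
  exact h3

/-- coefficients `p^j`, `j < n`, of `[p]_H` lie in the maximal ideal -/
lemma residue_coeff_mulSeries {Γ : FormalGroup (GaloisField p n)}
    (hΓ : mulSeries Γ p = PowerSeries.X ^ (p ^ n)) {H : FormalGroup (LTRing p n)}
    (hH : H.map (LTRing.residue p n) = Γ) (i : ℕ) :
    LTRing.residue p n (PowerSeries.coeff i (mulSeries H p)) = if i = p ^ n then 1 else 0 := by
  rw [← PowerSeries.coeff_map, ← Crest.Agent.LT.mulSeries_map, hH, hΓ, PowerSeries.coeff_X_pow]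

/-- **Tangent space lemma**: the linear parts (mod `p`) of `v_1, …, v_{n-1}` are independent. -/
theorem lam_eq_zero (hn : 1 ≤ n) {Γ : FormalGroup (GaloisField p n)}
    (hΓ : mulSeries Γ p = PowerSeries.X ^ (p ^ n)) {H : FormalGroup (LTRing p n)} [H.IsComm]
    (hH : IsUniversalDeformation p n Γ H) (lam : Fin (n - 1) → k)
    (h : ∀ j, 1 ≤ j → j < n → ∑ i, lam i * WittVector.constantCoeff
      (MvPowerSeries.coeff (Finsupp.single i 1)
        (PowerSeries.coeff (p ^ j) (mulSeries H p))) = 0) : lam = 0 := by
  let _ := algW (p := p) (n := n)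
  set φ₁ := dualAlgHom (p := p) (n := n) lam with hφ₁
  set φ₀ := dualAlgHom (p := p) (n := n) 0 with hφ₀
  have hr : Function.Surjective (TrivSqZeroExt.fstHom k k k).toRingHom := by
    intro x
    exact ⟨TrivSqZeroExt.inl x, rfl⟩
  set r : DualNumber k →+* k := (TrivSqZeroExt.fstHom k k k).toRingHom with hrdef
  have hker : RingHom.ker r = IsLocalRing.maximalIdeal (DualNumber k) := by
    have : (RingHom.ker r).IsMaximal := RingHom.ker_isMaximal_of_surjective _ hr
    exact IsLocalRing.eq_maximalIdeal this
  have hcomp : r.comp (algebraMap W (DualNumber k)) = WittVector.constantCoeff := by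
    ext x; rfl
  have hr₁ : r.comp φ₁.toRingHom = LTRing.residue p n := by
    ext1 f
    exact fst_dualHom lam f
  have hr₀ : r.comp φ₀.toRingHom = LTRing.residue p n := by
    ext1 f
    exact fst_dualHom 0 f
  -- the p-series of `G`
  set G := H.map φ₁.toRingHom with hG
  have : G.IsComm := Crest.Agent.LT.map_isComm H φ₁.toRingHom
  have hc : ∀ j < n, PowerSeries.coeff (p ^ j) (mulSeries G p) = 0 := by
    intro j hj
    rw [hG, Crest.Agent.LT.mulSeries_map, PowerSeries.coeff_map]
    rcases Nat.eq_zero_or_pos j with rfl | hj0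
    · rw [pow_zero, Crest.Agent.LT.coeff_one_mulSeries, map_natCast]
      exact CharP.cast_eq_zero _ p
    · change dualHom lam _ = 0
      ext
      · rw [fst_dualHom, residue_coeff_mulSeries hΓ hH.1, if_neg]
        · rfl
        · intro he
          exact absurd (Nat.pow_right_injective hp.1.two_le he) (by omega)
      · rw [snd_dualHom]
        exact h j hj0 hj
  obtain ⟨ψ, hψ, hψhom⟩ := IsFGHom.frob_factor_iterate p (isFGHom_mulSeries G p) n hc
  have hsrc : G.map (iterateFrobenius (DualNumber k) p n) = H.map φ₀.toRingHom := by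
    rw [hG, Crest.Agent.LT.map_map]
    congr 1
    ext1 f
    rw [RingHom.comp_apply, iterateFrobenius_dual hn]
    change TrivSqZeroExt.inl (TrivSqZeroExt.fst (dualHom lam f)) = dualHom 0 f
    rw [fst_dualHom, dualHom_zero]
  rw [hsrc] at hψhom
  have hψX : PowerSeries.map r ψ = PowerSeries.X := by
    have e1 := congrArg (PowerSeries.map r) hψ
    rw [← Crest.Agent.LT.mulSeries_map, hG, Crest.Agent.LT.map_map, hr₁, hH.1, hΓ,
      ← PowerSeries.expand_apply (p ^ n) (pow_ne_zero n hp.1.ne_zero), PowerSeries.map_expand] at e1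
    ext m
    have e2 := congrArg (PowerSeries.coeff (p ^ n * m)) e1
    rw [PowerSeries.coeff_expand_mul, PowerSeries.coeff_X_pow] at e2
    rw [← e2, PowerSeries.coeff_X]
    congr 1
    rw [eq_iff_iff]
    constructor
    · intro he
      exact Nat.eq_of_mul_eq_mul_left (Nat.pos_of_ne_zero (pow_ne_zero n hp.1.ne_zero))
        (by rw [he, mul_one])
    · rintro rfl; rw [mul_one]
  have hcp : IsAdicComplete (IsLocalRing.maximalIdeal (DualNumber k)) (DualNumber k) :=
    inferInstance
  have key := uniq_of_hom hH (DualNumber k) hcp r hr hker hcomp φ₀ φ₁ hr₀ hr₁ ψ hψhom hψX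
  classical
  funext i
  have e3 : dualHom (p := p) (n := n) 0 (MvPowerSeries.X i) =
      dualHom lam (MvPowerSeries.X i) :=
    DFunLike.congr_fun key (MvPowerSeries.X i)
  have e4 := congrArg TrivSqZeroExt.snd e3
  rw [snd_dualHom, snd_dualHom] at e4
  simp only [Pi.zero_apply, zero_mul, Finset.sum_const_zero] at e4
  rw [Finset.sum_eq_single i] at e4
  · rw [MvPowerSeries.coeff_index_single_self_X, _root_.map_one, mul_one] at e4
    exact e4.symm
  · intro b _ hb
    rw [MvPowerSeries.coeff_index_single_X, if_neg hb, _root_.map_zero, mul_zero]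
  · intro hh; exact absurd (Finset.mem_univ _) hh

end Crest.Agent.LT93
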